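import Vale.Agent.P207.N3.H143.Tensor

/-!
# The algebra of 4.6 (iii) (P207, line N3, package P17)
-/

open Finset Metric

namespace Vale.Agent.P207.N3.H143

variable {Y : Type*} (U : Submodule ℝ (Y → ℝ))

/-- monomials with factorials on the plane -/
noncomputable def mon (a : ℕ × ℕ) (x : EuclideanSpace ℝ (Fin 2)) : ℝ :=
  x 0 ^ a.1 * x 1 ^ a.2 / (a.1.factorial * a.2.factorial)

/-- the exponent vector of a pair -/
noncomputable def fs (a : ℕ × ℕ) : Fin 2 →₀ ℕ := Finsupp.single 0 a.1 + Finsupp.single 1 a.2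

theorem fs_zero (a : ℕ × ℕ) : fs a 0 = a.1 := by simp [fs]
theorem fs_one (a : ℕ × ℕ) : fs a 1 = a.2 := by simp [fs]

theorem fs_inj {a b : ℕ × ℕ} (h : fs a = fs b) : a = b := by
  have h0 := fs_zero a
  have h1 := fs_one a
  rw [h] at h0 h1
  rw [fs_zero] at h0
  rw [fs_one] at h1
  exact Prod.ext h0.symm h1.symm

theorem mon_eq (a : ℕ × ℕ) (x : EuclideanSpace ℝ (Fin 2)) :
    mon a x = ((fs a).prod fun i k => x i ^ k) * ((a.1.factorial : ℝ) * a.2.factorial)⁻¹ := by
  rw [Finsupp.prod_fintype _ _ (by intro i; simp), Fin.prod_univ_two, fs_zero, fs_one, mon]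
  rfl

/-- POLYNOMIAL RULE on the plane -/
theorem poly_rule2 (I : Finset (ℕ × ℕ)) {δ : ℝ} (hδ : 0 < δ) (F : ℕ × ℕ → Y → ℝ)
    (h : ∀ x ∈ ball (0 : EuclideanSpace ℝ (Fin 2)) δ, (fun y => ∑ a ∈ I, F a y * mon a x) ∈ U) :
    ∀ a ∈ I, F a ∈ U := by
  classical
  intro a ha
  refine mem_of_dual U fun f hf => ?_
  set Q : MvPolynomial (Fin 2) ℝ := ∑ a ∈ I, MvPolynomial.monomial (fs a)
    (f (F a) * ((a.1.factorial : ℝ) * a.2.factorial)⁻¹) with hQ
  have h1 : Q = 0 := by
    refine MvPolynomial.funext_set (fun _ => Set.Ioo (-(δ/2)) (δ/2))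
      (fun _ => Set.Ioo_infinite (by linarith)) (fun x hx => ?_)
    have hx' : (WithLp.toLp 2 x : EuclideanSpace ℝ (Fin 2)) ∈ ball (0 : EuclideanSpace ℝ (Fin 2)) δ := by
      rw [mem_ball_zero_iff, EuclideanSpace.norm_eq, Fin.sum_univ_two]
      have a0 := hx 0 (Set.mem_univ _)
      have a1 := hx 1 (Set.mem_univ _)
      have b0 : (x 0) ^ 2 < (δ/2)^2 := sq_lt_sq' a0.1 a0.2
      have b1 : (x 1) ^ 2 < (δ/2)^2 := sq_lt_sq' a1.1 a1.2
      rw [Real.sqrt_lt' hδ]
      simp only [Real.norm_eq_abs, sq_abs]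
      nlinarith [sq_nonneg δ]
    have h2 := hf _ (h _ hx')
    have h4 : (fun y => ∑ a ∈ I, F a y * mon a (WithLp.toLp 2 x : EuclideanSpace ℝ (Fin 2))) =
        ∑ a ∈ I, (mon a (WithLp.toLp 2 x : EuclideanSpace ℝ (Fin 2))) • F a := by
      funext y
      simp only [Finset.sum_apply, Pi.smul_apply, smul_eq_mul]
      exact Finset.sum_congr rfl fun i _ => mul_comm _ _
    rw [h4, map_sum] at h2
    rw [hQ, map_sum, map_zero, ← h2]
    refine Finset.sum_congr rfl fun b _ => ?_
    rw [MvPolynomial.eval_monomial, map_smul, smul_eq_mul, mon_eq]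
    ring
  have h3 : Q.coeff (fs a) = f (F a) * ((a.1.factorial : ℝ) * a.2.factorial)⁻¹ := by
    rw [hQ, MvPolynomial.coeff_sum, Finset.sum_eq_single_of_mem a ha]
    · simp
    · intro b _ hb
      rw [MvPolynomial.coeff_monomial, if_neg (fun hh => hb (fs_inj hh))]
  rw [h1, MvPolynomial.coeff_zero] at h3
  have h5 : ((a.1.factorial : ℝ) * a.2.factorial)⁻¹ ≠ 0 :=
    inv_ne_zero (mul_ne_zero (by exact_mod_cast Nat.factorial_ne_zero _)
      (by exact_mod_cast Nat.factorial_ne_zero _))
  exact (mul_eq_zero.mp h3.symm).resolve_right h5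

/-- X-jets of weight `< W1` are regular as soon as the T-jets are. -/
theorem xjets (J : Finset (ℕ × ℕ)) (w : ℕ × ℕ → ℝ) (W1 : ℝ) {δ : ℝ} (hδ : 0 < δ)
    (T X : ℕ × ℕ → Y → ℝ) (cT : ℕ × ℕ → EuclideanSpace ℝ (Fin 2) → ℝ)
    (PO : ∀ x ∈ ball (0 : EuclideanSpace ℝ (Fin 2)) δ, ∀ W < W1,
      (∀ a ∈ J, w a < W → T a ∈ U ∧ X a ∈ U) →
      (fun y => ∑ a ∈ J with w a = W, (cT a x * T a y + mon a x * X a y)) ∈ U)
    (hT : ∀ a ∈ J, w a < W1 → T a ∈ U) : ∀ a ∈ J, w a < W1 → X a ∈ U := by
  classical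
  -- strong induction on the number of indices of smaller weight
  have key : ∀ m : ℕ, ∀ a ∈ J, (J.filter fun b => w b < w a).card = m → w a < W1 → X a ∈ U := by
    intro m
    induction m using Nat.strong_induction_on with
    | _ m ih =>
      intro a ha hm hw
      have hlow : ∀ b ∈ J, w b < w a → T b ∈ U ∧ X b ∈ U := by
        intro b hb hlt
        refine ⟨hT b hb (hlt.trans hw), ?_⟩
        refine ih (J.filter fun c => w c < w b).card ?_ b hb rfl (hlt.trans hw)
        rw [← hm]
        refine Finset.card_lt_card ?_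
        rw [Finset.ssubset_iff_of_subset]
        · exact ⟨b, by simp [hb, hlt], by simp⟩
        · intro c hc
          simp only [Finset.mem_filter] at hc ⊢
          exact ⟨hc.1, hc.2.trans hlt⟩
      have h1 : ∀ x ∈ ball (0 : EuclideanSpace ℝ (Fin 2)) δ,
          (fun y => ∑ b ∈ J with w b = w a, X b y * mon b x) ∈ U := by
        intro x hx
        have h2 := PO x hx (w a) hw hlow
        have h3 : (fun y => ∑ b ∈ J with w b = w a, cT b x * T b y) ∈ U := by
          have : (fun y => ∑ b ∈ J with w b = w a, cT b x * T b y) =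
              ∑ b ∈ J with w b = w a, cT b x • T b := by
            funext y; simp [Finset.sum_apply]
          rw [this]
          refine Submodule.sum_mem _ fun b hb => Submodule.smul_mem _ _ ?_
          simp only [Finset.mem_filter] at hb
          exact hT b hb.1 (hb.2 ▸ hw)
        have h4 := U.sub_mem h2 h3
        have h5 : (fun y => ∑ b ∈ J with w b = w a, X b y * mon b x) =
            (fun y => ∑ b ∈ J with w b = w a, (cT b x * T b y + mon b x * X b y)) -
            (fun y => ∑ b ∈ J with w b = w a, cT b x * T b y) := by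
          funext y
          simp only [Pi.sub_apply, ← Finset.sum_sub_distrib]
          exact Finset.sum_congr rfl fun b _ => by ring
        rw [h5]
        exact h4
      have h5 := poly_rule2 U (J.filter fun b => w b = w a) hδ X h1
      exact h5 a (by simp [ha])
  intro a ha hw
  exact key _ a ha rfl hw

/-- order `2 λ₁`: the loop term `T₁₁(y) T'₁₁(x)` forces one of the two to be regular. -/
theorem loop_rule (J : Finset (ℕ × ℕ)) (w : ℕ × ℕ → ℝ) (W1 : ℝ) (D : Set (EuclideanSpace ℝ (Fin 2)))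
    (T X : ℕ × ℕ → Y → ℝ) (s : ℕ × ℕ → EuclideanSpace ℝ (Fin 2) → ℝ)
    (T' : EuclideanSpace ℝ (Fin 2) → ℝ) (a0 : ℕ × ℕ) (ha0 : a0 ∈ J) (hw0 : w a0 = W1)
    (PO : ∀ x ∈ D, (fun y => ∑ a ∈ J with w a = W1,
      ((s a x + if a = a0 then T' x else 0) * T a y + mon a x * X a y)) ∈ U) :
    T a0 ∈ U ∨ ∃ l m : ℕ × ℕ → ℝ, ∀ x ∈ D,
      T' x = ∑ a ∈ J with w a = W1, (l a * s a x + m a * mon a x) := by
  classical
  have h := tensor_rule U (((J.filter fun a => w a = W1).map ⟨Sum.inl, Sum.inl_injective⟩) ∪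
      ((J.filter fun a => w a = W1).map ⟨Sum.inr, Sum.inr_injective⟩)) D (T a0) T'
      (fun i : (ℕ × ℕ) ⊕ (ℕ × ℕ) => Sum.elim T X i) (fun i => Sum.elim s mon i) ?_
  · rcases h with h | ⟨l, hl⟩
    · exact Or.inl h
    right
    refine ⟨fun a => l (Sum.inl a), fun a => l (Sum.inr a), fun x hx => ?_⟩
    rw [hl x hx, Finset.sum_union, Finset.sum_map, Finset.sum_map, Finset.sum_add_distrib]
    · rfl
    · rw [Finset.disjoint_left]
      intro i hi hi'
      simp only [Finset.mem_map, Function.Embedding.coeFn_mk] at hi hi'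
      obtain ⟨a, _, rfl⟩ := hi
      obtain ⟨b, _, hb⟩ := hi'
      exact absurd hb (by simp)
  · intro x hx
    have h1 := PO x hx
    have h9 : (fun y => T a0 y * T' x + ∑ i ∈ ((J.filter fun a => w a = W1).map
        ⟨Sum.inl, Sum.inl_injective⟩) ∪ ((J.filter fun a => w a = W1).map
        ⟨Sum.inr, Sum.inr_injective⟩), Sum.elim T X i y * Sum.elim s mon i x) =
        (fun y => ∑ a ∈ J with w a = W1,
      ((s a x + if a = a0 then T' x else 0) * T a y + mon a x * X a y)) := by
      funext y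
      rw [Finset.sum_union, Finset.sum_map, Finset.sum_map]
      · simp only [Function.Embedding.coeFn_mk, Sum.elim_inl, Sum.elim_inr]
        have h2 : ∑ a ∈ J with w a = W1, (if a = a0 then T' x else 0) * T a y = T a0 y * T' x := by
          rw [Finset.sum_eq_single_of_mem a0 (by simp [ha0, hw0])]
          · simp [mul_comm]
          · intro b _ hb
            simp [hb]
        simp only [add_mul, Finset.sum_add_distrib]
        rw [h2]
        have e1 : ∀ a : ℕ × ℕ, T a y * s a x = s a x * T a y := fun a => mul_comm _ _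
        have e2 : ∀ a : ℕ × ℕ, X a y * mon a x = mon a x * X a y := fun a => mul_comm _ _
        simp only [e1, e2]
        ring
      · rw [Finset.disjoint_left]
        intro i hi hi'
        simp only [Finset.mem_map, Function.Embedding.coeFn_mk] at hi hi'
        obtain ⟨a, _, rfl⟩ := hi
        obtain ⟨b, _, hb⟩ := hi'
        exact absurd hb (by simp)
    rw [h9]
    exact h1

end Vale.Agent.P207.N3.H143
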