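import Vale.Agent.P207.N3.H143.Alg3

/-!
# Bi-weight identities: one rough variable exhausts the weight (P207, N3, P17 (iii))

`α, β` index the (finitely many) hatted variables on the `y`- and on the `x`-side, with positive
weights. A bi-weight identity is a vanishing polynomial `∑ c(μ,ν) ∏ a_i(y)^μ_i ∏ b_j(x)^ν_j` over the
monomials of `y`-weight `w` and `x`-weight `w'`.
-/

open Finset Metric

namespace Vale.Agent.P207.N3.H143

variable {Y X : Type*} {α β : Type*}

/-- weight of a monomial -/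
noncomputable def wt (w : α → ℝ) (μ : α →₀ ℕ) : ℝ := μ.sum fun i k => k * w i

/-- value of a monomial -/
noncomputable def mval (a : α → Y → ℝ) (μ : α →₀ ℕ) : Y → ℝ := μ.prod fun i k => a i ^ k

theorem wt_single (w : α → ℝ) (i : α) (k : ℕ) : wt w (Finsupp.single i k) = k * w i := by
  unfold wt; rw [Finsupp.sum_single_index]; simp

theorem mval_single (a : α → Y → ℝ) (i : α) : mval a (Finsupp.single i 1) = a i := by
  unfold mval; rw [Finsupp.prod_single_index] <;> simp

/-- a monomial of weight `W` in variables of positive weight: either a single variable of weight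
`W`, or all its variables have weight `< W` -/
theorem single_or_low {w : α → ℝ} (hw : ∀ i, 0 < w i) {W : ℝ} {μ : α →₀ ℕ} (h : wt w μ = W) :
    (∃ i, μ = Finsupp.single i 1 ∧ w i = W) ∨ ∀ i ∈ μ.support, w i < W := by
  classical
  by_cases hlow : ∀ i ∈ μ.support, w i < W
  · exact Or.inr hlow
  left
  push Not at hlow
  obtain ⟨i, hi, hiW⟩ := hlow
  have hμi : μ i ≠ 0 := Finsupp.mem_support_iff.mp hi
  have hμi1 : (1:ℝ) ≤ μ i := by exact_mod_cast Nat.one_le_iff_ne_zero.mpr hμi
  have hsplit : wt w μ = μ i * w i + ∑ j ∈ μ.support.erase i, μ j * w j := by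
    unfold wt
    rw [Finsupp.sum, ← Finset.add_sum_erase _ _ hi]
  have hnn : ∀ j ∈ μ.support.erase i, (0:ℝ) ≤ μ j * w j := fun j _ =>
    mul_nonneg (Nat.cast_nonneg _) (hw j).le
  have hsum : 0 ≤ ∑ j ∈ μ.support.erase i, (μ j : ℝ) * w j := Finset.sum_nonneg hnn
  have h1 : (μ i : ℝ) * w i ≤ W := by linarith
  have h2 : (μ i : ℝ) = 1 := by
    have h3 := hw i
    have h4 : (μ i : ℝ) * w i ≤ 1 * w i := by linarith
    exact le_antisymm (le_of_mul_le_mul_right h4 h3) hμi1
  have h3 : w i = W := by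
    rw [h2, one_mul] at h1
    exact le_antisymm h1 hiW
  have h4 : ∑ j ∈ μ.support.erase i, (μ j : ℝ) * w j = 0 := by
    rw [h, h2, one_mul, h3] at hsplit
    linarith
  have h5 := (Finset.sum_eq_zero_iff_of_nonneg hnn).mp h4
  refine ⟨i, ?_, h3⟩
  ext j
  by_cases hj : j = i
  · subst hj
    rw [Finsupp.single_eq_same]
    exact_mod_cast h2
  · rw [Finsupp.single_eq_of_ne hj]
    by_contra hne
    have hj' : j ∈ μ.support.erase i := Finset.mem_erase.mpr ⟨hj, Finsupp.mem_support_iff.mpr hne⟩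
    have := h5 j hj'
    rcases mul_eq_zero.mp this with h6 | h6
    · exact hne (by exact_mod_cast h6)
    · exact (hw j).ne' h6

theorem mval_mem {U : Subalgebra ℝ (Y → ℝ)} {a : α → Y → ℝ} {μ : α →₀ ℕ}
    (h : ∀ i ∈ μ.support, a i ∈ U) : mval a μ ∈ U := by
  unfold mval Finsupp.prod
  exact U.prod_mem fun i hi => U.pow_mem (h i hi) _

/-- **Heavy times heavy.** Bi-weight `(W, W')` identity, all variables of smaller weight regular:
for every `x`, `∑_{w i = W} a_i(y) (∑_ν c(i,ν) b^ν(x))` is regular in `y`. -/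
theorem heavy_y {U : Subalgebra ℝ (Y → ℝ)} {w : α → ℝ} (hw : ∀ i, 0 < w i) {W : ℝ}
    (M : Finset (α →₀ ℕ)) (N : Finset (β →₀ ℕ)) (hM : ∀ μ ∈ M, wt w μ = W)
    (c : (α →₀ ℕ) → (β →₀ ℕ) → ℝ) {a : α → Y → ℝ} (b : β → X → ℝ)
    (hid : ∀ y x, ∑ μ ∈ M, ∑ ν ∈ N, c μ ν * mval a μ y * mval b ν x = 0)
    (hlow : ∀ i, w i < W → a i ∈ U) (I : Finset α)
    (hI : ∀ i, Finsupp.single i 1 ∈ M ↔ i ∈ I) (x : X) :
    (fun y => ∑ i ∈ I, (∑ ν ∈ N, c (Finsupp.single i 1) ν * mval b ν x) * a i y) ∈ U := by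
  classical
  have hinj : Set.InjOn (fun i : α => Finsupp.single i 1) (I : Set α) := by
    intro i _ j _ hij
    exact (Finsupp.single_left_injective one_ne_zero) hij
  have hsub : I.image (fun i : α => Finsupp.single i (1:ℕ)) ⊆ M := by
    intro μ hμ
    simp only [Finset.mem_image] at hμ
    obtain ⟨i, hi, rfl⟩ := hμ
    exact (hI i).mpr hi
  have h1 : ∀ y, ∑ i ∈ I, (∑ ν ∈ N, c (Finsupp.single i 1) ν * mval b ν x) * a i y =
      - ∑ μ ∈ M \ I.image (fun i : α => Finsupp.single i (1:ℕ)),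
        (∑ ν ∈ N, c μ ν * mval b ν x) * mval a μ y := by
    intro y
    have h2 := hid y x
    have h3 : ∑ μ ∈ M, ∑ ν ∈ N, c μ ν * mval a μ y * mval b ν x =
        ∑ μ ∈ M, (∑ ν ∈ N, c μ ν * mval b ν x) * mval a μ y := by
      refine Finset.sum_congr rfl fun μ _ => ?_
      rw [Finset.sum_mul]
      exact Finset.sum_congr rfl fun ν _ => by ring
    rw [h3, ← Finset.sum_sdiff hsub, Finset.sum_image hinj] at h2
    have h4 : ∀ i ∈ I, (∑ ν ∈ N, c (Finsupp.single i 1) ν * mval b ν x) *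
        mval a (Finsupp.single i 1) y =
        (∑ ν ∈ N, c (Finsupp.single i 1) ν * mval b ν x) * a i y := by
      intro i _; rw [mval_single]
    rw [Finset.sum_congr rfl h4] at h2
    linarith
  have h2 : (fun y => ∑ i ∈ I, (∑ ν ∈ N, c (Finsupp.single i 1) ν * mval b ν x) * a i y) =
      - ∑ μ ∈ M \ I.image (fun i : α => Finsupp.single i (1:ℕ)),
        (∑ ν ∈ N, c μ ν * mval b ν x) • mval a μ := by
    funext y
    rw [h1 y]
    simp [Finset.sum_apply]
  rw [h2]
  refine U.neg_mem (U.sum_mem fun μ hμ => U.smul_mem (mval_mem fun i hi => ?_) _)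
  rw [Finset.mem_sdiff] at hμ
  rcases single_or_low hw (hM μ hμ.1) with ⟨i', rfl, _⟩ | hl
  · exfalso
    apply hμ.2
    exact Finset.mem_image.mpr ⟨i', (hI i').mp hμ.1, rfl⟩
  · exact hlow i (hl i hi)

/-- splitting the `x`-side of the coefficient of a heavy variable -/
theorem heavy_x {V : Subalgebra ℝ (X → ℝ)} {w' : β → ℝ} (hw' : ∀ j, 0 < w' j) {W' : ℝ}
    (N : Finset (β →₀ ℕ)) (hN : ∀ ν ∈ N, wt w' ν = W') (c : (β →₀ ℕ) → ℝ) {b : β → X → ℝ}
    (hlow : ∀ j, w' j < W' → b j ∈ V)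
    (hc : ∀ j, w' j = W' → Finsupp.single j 1 ∈ N → c (Finsupp.single j 1) = 0) :
    (fun x => ∑ ν ∈ N, c ν * mval b ν x) ∈ V := by
  classical
  have : (fun x => ∑ ν ∈ N, c ν * mval b ν x) = ∑ ν ∈ N, c ν • mval b ν := by
    funext x; simp [Finset.sum_apply]
  rw [this]
  refine V.sum_mem fun ν hν => ?_
  rcases single_or_low hw' (hN ν hν) with ⟨j, rfl, hj⟩ | hl
  · rw [hc j hj hν, zero_smul]
    exact V.zero_mem
  · exact V.smul_mem (mval_mem fun j hj => hlow j (hl j hj)) _

/-- **4.6 (iii), bi-weight form.** All variables of weight `< W` regular on both sides; the only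
bilinear term of bi-weight `(W, W)` is `c₀ a_{i₀} b_{j₀}`, `c₀ ≠ 0`. Then `a_{i₀}` or `b_{j₀}` is
regular. -/
theorem loop_biweight {U : Subalgebra ℝ (Y → ℝ)} {V : Subalgebra ℝ (X → ℝ)}
    {w : α → ℝ} (hw : ∀ i, 0 < w i) {w' : β → ℝ} (hw' : ∀ j, 0 < w' j) {W : ℝ}
    (M : Finset (α →₀ ℕ)) (N : Finset (β →₀ ℕ)) (hM : ∀ μ ∈ M, wt w μ = W)
    (hN : ∀ ν ∈ N, wt w' ν = W)
    (c : (α →₀ ℕ) → (β →₀ ℕ) → ℝ) {a : α → Y → ℝ} {b : β → X → ℝ}
    (hid : ∀ y x, ∑ μ ∈ M, ∑ ν ∈ N, c μ ν * mval a μ y * mval b ν x = 0)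
    (hlow : ∀ i, w i < W → a i ∈ U) (hlow' : ∀ j, w' j < W → b j ∈ V)
    (i₀ : α) (j₀ : β) (hi₀ : Finsupp.single i₀ 1 ∈ M) (hj₀ : Finsupp.single j₀ 1 ∈ N)
    (hc0 : c (Finsupp.single i₀ 1) (Finsupp.single j₀ 1) ≠ 0)
    (hc : ∀ i j, Finsupp.single i 1 ∈ M → Finsupp.single j 1 ∈ N →
      c (Finsupp.single i 1) (Finsupp.single j 1) ≠ 0 → i = i₀ ∧ j = j₀) :
    a i₀ ∈ U ∨ b j₀ ∈ V := by
  classical
  -- the finite set of heavy variables
  set I : Finset α := (M.biUnion fun μ => μ.support).filter fun i => Finsupp.single i 1 ∈ M with hI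
  have hImem : ∀ i, Finsupp.single i 1 ∈ M ↔ i ∈ I := by
    intro i
    simp only [hI, Finset.mem_filter, Finset.mem_biUnion]
    constructor
    · intro h
      exact ⟨⟨_, h, by simp⟩, h⟩
    · intro h; exact h.2
  set c₀ := c (Finsupp.single i₀ 1) (Finsupp.single j₀ 1) with hc₀
  -- the coefficient functions of the heavy variables
  set Q : α → X → ℝ := fun i x => ∑ ν ∈ N,
    (if i = i₀ ∧ ν = Finsupp.single j₀ 1 then 0 else c (Finsupp.single i 1) ν) * mval b ν x with hQ
  have hQV : ∀ i ∈ I, Q i ∈ V := by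
    intro i hi
    refine heavy_x (W' := W) hw' N hN (fun ν => if i = i₀ ∧ ν = Finsupp.single j₀ 1 then 0
      else c (Finsupp.single i 1) ν) hlow' ?_
    intro j hj hjN
    by_cases h1 : i = i₀ ∧ (Finsupp.single j 1 : β →₀ ℕ) = Finsupp.single j₀ 1
    · simp [h1]
    · rw [if_neg h1]
      by_contra h2
      obtain ⟨h3, h4⟩ := hc i j ((hImem i).mpr hi) hjN h2
      exact h1 ⟨h3, by rw [h4]⟩
  have hsum : ∀ i x, ∑ ν ∈ N, c (Finsupp.single i 1) ν * mval b ν x =
      Q i x + if i = i₀ then c₀ * b j₀ x else 0 := by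
    intro i x
    simp only [hQ]
    by_cases hii : i = i₀
    · subst hii
      rw [if_pos rfl, ← Finset.add_sum_erase _ _ hj₀, ← Finset.add_sum_erase _ _ hj₀]
      simp only [true_and, if_true, zero_mul, zero_add, mval_single]
      rw [add_comm]
      congr 1
      refine Finset.sum_congr rfl fun ν hν => ?_
      rw [if_neg (Finset.ne_of_mem_erase hν)]
    · simp [hii]
  have h1 : ∀ x ∈ (Set.univ : Set X), (fun y => a i₀ y * (c₀ * b j₀ x) + ∑ i ∈ I, a i y * Q i x)
      ∈ U.toSubmodule := by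
    intro x _
    have h2 := heavy_y (b := b) hw M N hM c hid hlow I hImem x
    have h3 : (fun y => ∑ i ∈ I, (∑ ν ∈ N, c (Finsupp.single i 1) ν * mval b ν x) * a i y) =
        fun y => a i₀ y * (c₀ * b j₀ x) + ∑ i ∈ I, a i y * Q i x := by
      funext y
      have h4 : ∀ i ∈ I, (∑ ν ∈ N, c (Finsupp.single i 1) ν * mval b ν x) * a i y =
          a i y * Q i x + if i = i₀ then a i y * (c₀ * b j₀ x) else 0 := by
        intro i _
        rw [hsum]
        split_ifs <;> ring
      rw [Finset.sum_congr rfl h4, Finset.sum_add_distrib, Finset.sum_ite_eq' I i₀,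
        if_pos ((hImem i₀).mp hi₀), add_comm]
    rw [h3] at h2
    exact h2
  rcases tensor_rule U.toSubmodule I Set.univ (a i₀) (fun x => c₀ * b j₀ x) a Q h1 with h | ⟨l, hl⟩
  · exact Or.inl h
  right
  have h2 : b j₀ = c₀⁻¹ • ∑ i ∈ I, l i • Q i := by
    funext x
    have := hl x (Set.mem_univ x)
    simp only [Pi.smul_apply, Finset.sum_apply, smul_eq_mul]
    rw [← this]
    field_simp
  rw [h2]
  exact V.smul_mem (V.sum_mem fun i hi => V.smul_mem (hQV i hi) _) _

/-- **Densities.** `T a` is regular for all weights `< W1`, and in the bi-weight `(w, w)` identity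
the variable `X a` alone is multiplied by `x^a / a!`: then all `X a` of weight `< W1` are regular. -/
theorem xjets_biweight {U : Subalgebra ℝ (Y → ℝ)} (J : Finset (ℕ × ℕ)) (wJ : ℕ × ℕ → ℝ)
    (hwJ : ∀ a, 0 < wJ a) (W1 : ℝ) {δ : ℝ} (hδ : 0 < δ)
    (M : ℝ → Finset (((ℕ × ℕ) ⊕ (ℕ × ℕ)) →₀ ℕ)) (N : ℝ → Finset (β →₀ ℕ))
    (hM : ∀ W < W1, ∀ μ ∈ M W, wt (Sum.elim wJ wJ) μ = W)
    (hMT : ∀ W < W1, ∀ a, Finsupp.single (Sum.inl a) 1 ∈ M W → a ∈ J)
    (hMX : ∀ W < W1, ∀ a, Finsupp.single (Sum.inr a) 1 ∈ M W ↔ a ∈ J ∧ wJ a = W)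
    (c : (((ℕ × ℕ) ⊕ (ℕ × ℕ)) →₀ ℕ) → (β →₀ ℕ) → ℝ) {T X : ℕ × ℕ → Y → ℝ}
    (b : β → ball (0 : EuclideanSpace ℝ (Fin 2)) δ → ℝ)
    (hid : ∀ W < W1, ∀ y x, ∑ μ ∈ M W, ∑ ν ∈ N W, c μ ν * mval (Sum.elim T X) μ y * mval b ν x = 0)
    (hcX : ∀ a ∈ J, ∀ x, ∑ ν ∈ N (wJ a), c (Finsupp.single (Sum.inr a) 1) ν * mval b ν x = mon a x)
    (hout : ∀ a, a ∉ J → wJ a < W1 → T a ∈ U ∧ X a ∈ U)
    (hT : ∀ a ∈ J, wJ a < W1 → T a ∈ U) : ∀ a ∈ J, wJ a < W1 → X a ∈ U := by
  classical
  have key : ∀ m : ℕ, ∀ a ∈ J, (J.filter fun b => wJ b < wJ a).card = m → wJ a < W1 → X a ∈ U := by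
    intro m
    induction m using Nat.strong_induction_on with
    | _ m ih =>
      intro a ha hm hw
      have hlow : ∀ b ∈ J, wJ b < wJ a → X b ∈ U := by
        intro b hb hlt
        refine ih (J.filter fun c => wJ c < wJ b).card ?_ b hb rfl (hlt.trans hw)
        rw [← hm]
        refine Finset.card_lt_card ?_
        rw [Finset.ssubset_iff_of_subset]
        · exact ⟨b, by simp [hb, hlt], by simp⟩
        · intro c hc
          simp only [Finset.mem_filter] at hc ⊢
          exact ⟨hc.1, hc.2.trans hlt⟩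
      have hlow2 : ∀ i, Sum.elim wJ wJ i < wJ a → Sum.elim T X i ∈ U := by
        rintro (b | b) hb
        · by_cases hbJ : b ∈ J
          · exact hT b hbJ (lt_trans hb hw)
          · exact (hout b hbJ (lt_trans hb hw)).1
        · by_cases hbJ : b ∈ J
          · exact hlow b hbJ hb
          · exact (hout b hbJ (lt_trans hb hw)).2
      set I : Finset ((ℕ × ℕ) ⊕ (ℕ × ℕ)) := ((M (wJ a)).biUnion fun μ => μ.support).filter
        fun i => Finsupp.single i 1 ∈ M (wJ a) with hI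
      have hImem : ∀ i, Finsupp.single i 1 ∈ M (wJ a) ↔ i ∈ I := by
        intro i
        simp only [hI, Finset.mem_filter, Finset.mem_biUnion]
        constructor
        · intro h
          exact ⟨⟨_, h, by simp⟩, h⟩
        · intro h; exact h.2
      have hwpos : ∀ i, 0 < Sum.elim wJ wJ i := by rintro (b | b) <;> exact hwJ b
      have h1 : ∀ x ∈ ball (0 : EuclideanSpace ℝ (Fin 2)) δ,
          (fun y => ∑ b ∈ J with wJ b = wJ a, X b y * mon b x) ∈ U.toSubmodule := by
        intro x hx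
        have h2 := heavy_y hwpos (M (wJ a)) (N (wJ a)) (hM _ hw) c b (hid _ hw) hlow2 I hImem ⟨x, hx⟩
        set e : ((ℕ × ℕ) ⊕ (ℕ × ℕ)) → ℝ := fun i =>
          ∑ ν ∈ N (wJ a), c (Finsupp.single i 1) ν * mval b ν ⟨x, hx⟩ with he
        have h3 : (fun y => ∑ i ∈ I, e i * Sum.elim T X i y) =
            (∑ i ∈ I with i.isLeft, e i • Sum.elim T X i) +
            fun y => ∑ b ∈ J with wJ b = wJ a, X b y * mon b x := by
          funext y
          rw [Pi.add_apply, ← Finset.sum_filter_add_sum_filter_not I (fun i => i.isLeft = true)]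
          congr 1
          · simp [Finset.sum_apply]
          · refine (Finset.sum_bij' (i := fun b _ => Sum.inr b)
              (j := fun i _ => Sum.elim id id i) ?_ ?_ ?_ ?_ ?_).symm
            · intro b hb
              simp only [Finset.mem_filter] at hb ⊢
              exact ⟨(hImem _).mp ((hMX _ hw b).mpr ⟨hb.1, hb.2⟩), by simp⟩
            · rintro (i | i) hi
              · simp at hi
              · simp only [Finset.mem_filter] at hi ⊢
                exact (hMX _ hw i).mp ((hImem _).mpr hi.1)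
            · intro b _; rfl
            · rintro (i | i) hi
              · simp at hi
              · rfl
            · intro b hb
              simp only [Finset.mem_filter] at hb
              have h5 := hcX b hb.1 ⟨x, hx⟩
              rw [hb.2] at h5
              simp only [he, Sum.elim_inr]
              rw [h5]
              ring
        have h4 : (∑ i ∈ I with i.isLeft, e i • Sum.elim T X i) ∈ U := by
          refine U.sum_mem fun i hi => U.smul_mem ?_ _
          simp only [Finset.mem_filter] at hi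
          rcases i with i | i
          · have h6 := hMT _ hw i ((hImem _).mpr hi.1)
            have h7 : wJ i = wJ a := by
              have := hM _ hw _ ((hImem _).mpr hi.1)
              rw [wt_single] at this
              simpa using this
            exact hT i h6 (by rw [h7]; exact hw)
          · simp at hi
        rw [h3] at h2
        exact (U.toSubmodule.add_mem_iff_right h4).mp h2
      have h5 := poly_rule2 U.toSubmodule (J.filter fun b => wJ b = wJ a) hδ X h1
      exact h5 a (by simp [ha])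
  intro a ha hw
  exact key _ a ha rfl hw

end Vale.Agent.P207.N3.H143
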