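import Vale.Agent.P207.N3.H143.Rel
import Vale.Agent.P207.N3.H547.Reg
import Vale.Agent.P207.N3.H310.Fw

/-!
# P207, N3, Case 2 (4.6 ii): a regular homoclinic gives a regular leaf of the product formula
-/

open Set Filter Topology Metric InnerProductSpace
open scoped ContDiff RealInnerProductSpace Gradient

noncomputable section

namespace Vale.Agent.P207.N3.H143

set_option linter.unusedSectionVars false

variable {Γ X B : Type} [Group Γ] [MetricSpace X] [ProperSpace X] [MulAction Γ X]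
  [IsIsometricSMul Γ X] [TopologicalSpace B] [CompactSpace B] [T2Space B] [MulAction Γ B]
  [ContinuousConstSMul Γ B] [MeasurableSpace B] [BorelSpace B]

variable {L : Leaf Γ X B} {A : Area L} {T : Tens L} {k₀ : ℕ} {o : Orb L}

/-- the conclusion of `slow` at the point `ζ` -/
def SlowAt {c : ℝ} {n : Nor L o} (W : H147.Fwd o n.x n.N.fn c) {g : Γ} {neg pos : B}
    {x y : B → E2} {H H' : Half} (S : Side T g neg pos x y H H') (ζ : B) : Prop :=
  ∃ s : ℝ, s ≠ 0 ∧ ∀ w : E2, fderiv ℝ (PP S ζ (L.hol ζ o.x)) 0 w = EuclideanSpace.single 1 1 →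
    fderiv ℝ (fun u => W.F ζ (L.e (L.hol ζ o.x) u)) 0 w = s • (EuclideanSpace.single 1 1 : E2)

theorem e_split (v : E2) : v = v 0 • (EuclideanSpace.single 0 1 : E2) +
    v 1 • (EuclideanSpace.single 1 1 : E2) := by
  ext i
  fin_cases i <;> simp

/-- the gradient of the translated level function in the slow direction -/
theorem grad_slow (t : LevForm A T k₀ o) (ht : t.i = 1) {c : ℝ}
    (W : H147.Fwd o t.n.x t.n.N.fn c) {k : Γ}
    (hreg : (W.Bm k (EuclideanSpace.single 0 1)) 0 ≠ 0) {f₁ : X}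
    (hf₁' : L.ep f₁ = o.pos) (hkf : L.em (k • f₁) = o.neg) {w : E2} {s : ℝ} (hs : s ≠ 0)
    (hw : W.G f₁ w = s • (EuclideanSpace.single 1 1 : E2)) :
    ⟪∇ (FF t k f₁) 0, w⟫ ≠ 0 := by
  have hpos3 : (0 : E2) ∈ ball (0 : E2) 3 := mem_ball_self (by norm_num)
  have hBm := H310.Bm_eq W k hf₁' hkf
  set D := fderiv ℝ (fun u => t.n.x (L.e (k • f₁) u)) 0 with hD
  set v := D w with hv
  have h1 : W.Bm k v = s • (EuclideanSpace.single 1 1 : E2) := by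
    rw [← hw, ← hBm]
    rfl
  have hdiff : DifferentiableAt ℝ (fun u => t.n.x (L.e (k • f₁) u)) 0 :=
    ((t.n.smooth (k • f₁) hkf).contDiffAt (isOpen_ball.mem_nhds hpos3)).differentiableAt (by simp)
  have h2 : ⟪∇ (FF t k f₁) 0, w⟫ = v 1 := by
    have e1 : ⟪∇ (FF t k f₁) 0, w⟫ = fderiv ℝ (FF t k f₁) 0 w := by
      rw [gradient, toDual_symm_apply]
    have e2 : FF t k f₁ =ᶠ[𝓝 0] fun u => t.n.x (L.e (k • f₁) u) 1 := by
      filter_upwards [isOpen_ball.mem_nhds hpos3] with u hu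
      rw [FF_eq t k f₁ hu, ht]
    have e3 : HasFDerivAt (fun u => t.n.x (L.e (k • f₁) u) 1)
        ((EuclideanSpace.proj (𝕜 := ℝ) (1 : Fin 2) : E2 →L[ℝ] ℝ) ∘L D) 0 :=
      (EuclideanSpace.proj (𝕜 := ℝ) (1 : Fin 2) : E2 →L[ℝ] ℝ).hasFDerivAt.comp 0
        hdiff.hasFDerivAt
    rw [e1, e2.fderiv_eq, e3.fderiv]
    rfl
  rw [h2]
  intro hv1
  have h3 : v = v 0 • (EuclideanSpace.single 0 1 : E2) := by
    conv_lhs => rw [e_split v, hv1, zero_smul, add_zero]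
  have h4 : v 0 * (W.Bm k (EuclideanSpace.single 0 1)) 0 = 0 := by
    have h5 := congrArg (fun z : E2 => z 0) h1
    simp only at h5
    rw [h3, map_smul] at h5
    simpa using h5
  rcases mul_eq_zero.mp h4 with h5 | h5
  · rw [h3, h5, zero_smul, map_zero] at h1
    have h6 := congrArg (fun z : E2 => z 1) h1
    simp at h6
    exact hs h6.symm
  · exact hreg h5

/-- **Regular homoclinic ⇒ regular leaf.** -/
theorem regLeaf_ev (t : LevForm A T k₀ o) (ht : t.i = 1) {c : ℝ}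
    (W : H147.Fwd o t.n.x t.n.N.fn c) {D : PF} {g : Γ} {x y : B → E2}
    (S : Side T g o.neg o.pos x y D.X D.Y) (hx0 : x o.pos = 0) (hy0 : y o.neg = 0)
    (hyc : ContinuousAt y o.neg) {xinv : E2 → B} (hxc : ContinuousAt xinv 0)
    (hxi0 : xinv 0 = o.pos) (hxi : ∀ᶠ q in 𝓝 0, x (xinv q) = q)
    (hslow : ∀ᶠ ζ in 𝓝 o.neg, SlowAt W S ζ)
    (hreg : ∀ k : Γ, k • o.pos ≠ o.neg → (W.Bm k (EuclideanSpace.single 0 1)) 0 ≠ 0) :
    ∀ᶠ ζ in 𝓝 o.neg, ∀ k : Γ, k • ζ = o.neg → y ζ 1 ≠ 0 →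
      H547.RegLeaf D (y ζ) := by
  have hne : ∀ᶠ ζ in 𝓝 o.neg, ζ ≠ o.pos := isOpen_ne.mem_nhds o.neg_ne_pos
  filter_upwards [relLeaf t S hx0 hy0 hyc hxc hxi0 hxi, hslow, hne] with ζ hrel hsl hζ
  intro k hk hy1
  set f₁ := L.hol ζ o.x with hf
  have hζ' : ζ ≠ L.ep o.x := hζ
  have hf₁ : L.em f₁ = ζ := L.hol_em ζ o.x hζ'
  have hf₁' : L.ep f₁ = o.pos := L.hol_ep ζ o.x hζ'
  have hkf : L.em (k • f₁) = o.neg := by rw [L.em_smul, hf₁, hk]
  obtain ⟨hyr, -, -, -, hdet, ⟨π, hπ0, hπ⟩, ξ, h, hξ, hh, hadj, hN⟩ := hrel k hk f₁ hf₁ hf₁'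
  refine ⟨hyr, hy1, ξ, h, π, hξ, hh, ?_, hπ0, ?_⟩
  · -- `ξ(0)₂ ≠ 0`
    obtain ⟨s, hs, hsw⟩ := hsl
    set Dp := fderiv ℝ (PP S ζ f₁) 0 with hDp
    set e₀ : E2 ≃L[ℝ] E2 := Dp.toContinuousLinearEquivOfDetNeZero hdet with he₀
    set w := e₀.symm (EuclideanSpace.single 1 1) with hwdef
    have hw : Dp w = EuclideanSpace.single 1 1 := by
      have : (e₀ : E2 → E2) w = EuclideanSpace.single 1 1 := by rw [hwdef]; simp
      rw [← this, he₀]
      simp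
    have hG : W.G f₁ w = s • (EuclideanSpace.single 1 1 : E2) := by
      have h1 := hsw w hw
      have h2 : W.G f₁ = fderiv ℝ (fun u => W.F ζ (L.e f₁ u)) 0 := by
        unfold H147.Fwd.G
        rw [hf₁]
      rw [h2]
      exact h1
    have hkpos : k • o.pos ≠ o.neg := by
      intro h1
      rw [← hk] at h1
      exact hζ ((MulAction.injective k h1).symm)
    have h1 := grad_slow t ht W (hreg k hkpos) hf₁' hkf hs hG
    rw [← hadj, ContinuousLinearMap.adjoint_inner_left, hw] at h1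
    intro h2
    apply h1
    rw [← coord_eq]
    exact h2
  · -- the relation
    have h1 : Tendsto (fun q : E2 => (q, π q)) (𝓝 0) (𝓝 0) := by
      have : Tendsto (fun q : E2 => (q, π q)) (𝓝 0) (𝓝 ((0 : E2), (0 : E2))) :=
        tendsto_id.prodMk_nhds hπ0
      exact this
    filter_upwards [hπ, h1.eventually hN] with q g1 g2
    refine ⟨g1, ?_⟩
    obtain ⟨N, hN1, hN2⟩ := g2 g1
    refine ⟨N, ?_, hN2⟩
    refine Eq.trans ?_ hN1
    rw [ContinuousLinearMap.sub_comp]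
    rfl

/-- existence of arbitrarily small regular leaves -/
theorem exists_regLeaf (t : LevForm A T k₀ o) (ht : t.i = 1) {c : ℝ}
    (W : H147.Fwd o t.n.x t.n.N.fn c) {D : PF} {g : Γ} {x y : B → E2}
    (S : Side T g o.neg o.pos x y D.X D.Y) (hx0 : x o.pos = 0) (hy0 : y o.neg = 0)
    (hyc : ∀ᶠ ξ in 𝓝 o.neg, ContinuousAt y ξ) {xinv : E2 → B} (hxc : ContinuousAt xinv 0)
    (hxi0 : xinv 0 = o.pos) (hxi : ∀ᶠ q in 𝓝 0, x (xinv q) = q)
    {yinv : E2 → B} (hyic : ContinuousAt yinv 0)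
    (hyi0 : yinv 0 = o.neg) (hyi : ∀ᶠ q in 𝓝 0, y (yinv q) = q)
    (hslow : ∀ᶠ ζ in 𝓝 o.neg, SlowAt W S ζ)
    (hreg : ∀ k : Γ, k • o.pos ≠ o.neg → (W.Bm k (EuclideanSpace.single 0 1)) 0 ≠ 0)
    {ε : ℝ} (hε : 0 < ε) :
    ∃ xs ∈ ball (0 : E2) ε, H547.RegLeaf D xs := by
  have hev := regLeaf_ev t ht W S hx0 hy0 hyc.self_of_nhds hxc hxi0 hxi hslow hreg
  -- a small vector `q₁` with nonzero second coordinate
  have hyi' : Tendsto yinv (𝓝 0) (𝓝 o.neg) := by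
    have := hyic.tendsto
    rwa [hyi0] at this
  have h1 : ∀ᶠ q in 𝓝 (0 : E2), y (yinv q) = q ∧ ContinuousAt y (yinv q) ∧
      (∀ᶠ ζ in 𝓝 (yinv q), ∀ k : Γ, k • ζ = o.neg → y ζ 1 ≠ 0 →
        H547.RegLeaf D (y ζ)) ∧ q ∈ ball (0 : E2) ε := by
    filter_upwards [hyi, hyi'.eventually hyc, hyi'.eventually hev.eventually_nhds,
      isOpen_ball.mem_nhds (mem_ball_self hε)] with q g1 g2 g3 g4
    exact ⟨g1, g2, g3, g4⟩
  have h2 : Tendsto (fun r : ℝ => r • (EuclideanSpace.single 1 1 : E2)) (𝓝[>] 0) (𝓝 0) := by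
    have : Tendsto (fun r : ℝ => r • (EuclideanSpace.single 1 1 : E2)) (𝓝 0)
        (𝓝 ((0 : ℝ) • (EuclideanSpace.single 1 1 : E2))) :=
      (continuous_id.smul continuous_const).tendsto 0
    rw [zero_smul] at this
    exact this.mono_left nhdsWithin_le_nhds
  obtain ⟨r, hr1, hr2⟩ := ((h2.eventually h1).and self_mem_nhdsWithin).exists
  set q₁ : E2 := r • EuclideanSpace.single 1 1 with hq₁
  obtain ⟨g1, g2, g3, g4⟩ := hr1
  have hq11 : q₁ 1 ≠ 0 := by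
    have : q₁ 1 = r := by simp [hq₁]
    rw [this]
    exact (ne_of_gt hr2)
  set ζ₁ := yinv q₁ with hζ₁
  have hopen : ∀ᶠ ζ in 𝓝 ζ₁, y ζ ∈ ball (0 : E2) ε ∧ y ζ 1 ≠ 0 := by
    have h3 : Tendsto y (𝓝 ζ₁) (𝓝 q₁) := by
      have := g2.tendsto
      rwa [g1] at this
    have h4 : ContinuousAt (fun q : E2 => q 1) q₁ := by fun_prop
    have h6 : ∀ᶠ q in 𝓝 q₁, q ∈ ball (0 : E2) ε := isOpen_ball.mem_nhds g4
    have h5 : ∀ᶠ q in 𝓝 q₁, q ∈ ball (0 : E2) ε ∧ q 1 ≠ 0 := h6.and (h4.eventually_ne hq11)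
    exact h3.eventually h5
  obtain ⟨O, hOsub, hO, hζO⟩ := _root_.mem_nhds_iff.mp (g3.and hopen)
  obtain ⟨_, hζ2, ⟨k', rfl⟩⟩ := (L.dense_orbit o.neg).inter_open_nonempty O hO ⟨ζ₁, hζO⟩
  obtain ⟨g5, g6, g7⟩ := hOsub hζ2
  simp only at g5 g6 g7
  exact ⟨y (k' • o.neg), g6, g5 k'⁻¹ (by simp) g7⟩

end Vale.Agent.P207.N3.H143
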