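import Vale.Agent.P207.N3.H391.PF

/-!
# P207, N3: elementary facts about `Half`: gradient, Hessian, joint continuity, smallness
-/

open Set Filter Topology Metric InnerProductSpace
open scoped ContDiff RealInnerProductSpace Gradient

noncomputable section

namespace Vale.Agent.P207.N3.H143

theorem coord_eq (v : E2) (i : Fin 2) : v i = ⟪v, EuclideanSpace.single i 1⟫ := by
  rw [EuclideanSpace.inner_single_right]
  simp

/-- a map into the plane is continuous if its products with fixed vectors are -/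
theorem continuousOn_of_inner {Z : Type*} [TopologicalSpace Z] {f : Z → E2} {s : Set Z}
    (h : ∀ w : E2, ContinuousOn (fun z => ⟪f z, w⟫) s) : ContinuousOn f s := by
  have h2 : f = fun z => (WithLp.toLp 2 (fun i => ⟪f z, EuclideanSpace.single i 1⟫) : E2) := by
    funext z
    ext i
    rw [coord_eq (f z) i]
  rw [h2]
  exact (PiLp.continuous_toLp 2 (fun _ : Fin 2 => ℝ)).comp_continuousOn
    (continuousOn_pi.mpr fun i => h _)

/-- the Hessian as a linear map -/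
theorem inner_fderiv_gradient {f : E2 → ℝ} {q : E2} (h : ContDiffAt ℝ ∞ f q) (v w : E2) :
    ⟪fderiv ℝ (∇ f) q v, w⟫ = iteratedFDeriv ℝ 2 f q ![v, w] := by
  have h1 : ∇ f = fun q => (toDual ℝ E2).symm (fderiv ℝ f q) := rfl
  have hd : DifferentiableAt ℝ (fderiv ℝ f) q :=
    (h.fderiv_right (m := ∞) (by norm_cast)).differentiableAt (by simp)
  have h2 : fderiv ℝ (∇ f) q v = (toDual ℝ E2).symm (fderiv ℝ (fderiv ℝ f) q v) := by
    rw [h1]
    have h3 := ((toDual ℝ E2).symm.toContinuousLinearEquiv.toContinuousLinearMap.hasFDerivAt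
      (x := fderiv ℝ f q)).comp q hd.hasFDerivAt
    have h4 : HasFDerivAt (fun q => (toDual ℝ E2).symm (fderiv ℝ f q)) _ q := h3
    rw [h4.fderiv]
    rfl
  rw [h2, toDual_symm_apply, iteratedFDeriv_two_apply]
  simp

theorem contDiffAt_gradient {f : E2 → ℝ} {q : E2} (h : ContDiffAt ℝ ∞ f q) :
    ContDiffAt ℝ ∞ (∇ f) q := by
  have h1 : ContDiffAt ℝ ∞ (fderiv ℝ f) q := h.fderiv_right (m := ∞) (by norm_cast)
  exact (toDual ℝ E2).symm.toContinuousLinearEquiv.toContinuousLinearMap.contDiff.contDiffAt.comp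
    q h1

variable (H : Half)

theorem smoothAt_S {y q : E2} (hy : y ∈ ball (0 : E2) H.r) (hq : q ∈ ball (0 : E2) H.r) :
    ContDiffAt ℝ ∞ (H.S y) q :=
  (H.S_smooth y hy).contDiffAt (isOpen_ball.mem_nhds hq)

theorem smoothAt_grad {y q : E2} (hy : y ∈ ball (0 : E2) H.r) (hq : q ∈ ball (0 : E2) H.r) :
    ContDiffAt ℝ ∞ (∇ (H.S y)) q := contDiffAt_gradient (smoothAt_S H hy hq)

theorem grad_zero {q : E2} (hq : q ∈ ball (0 : E2) H.r) : ∇ (H.S 0) q = 0 := by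
  have h1 : H.S 0 =ᶠ[𝓝 q] fun _ => (0 : ℝ) := by
    filter_upwards [isOpen_ball.mem_nhds hq] with w hw using H.S_zero w hw
  rw [Filter.EventuallyEq.gradient_eq h1]
  simp

theorem grad_zero_ev {q : E2} (hq : q ∈ ball (0 : E2) H.r) : ∇ (H.S 0) =ᶠ[𝓝 q] fun _ => 0 := by
  filter_upwards [isOpen_ball.mem_nhds hq] with w hw using grad_zero H hw

theorem hess_zero {q : E2} (hq : q ∈ ball (0 : E2) H.r) : fderiv ℝ (∇ (H.S 0)) q = 0 := by
  rw [(grad_zero_ev H hq).fderiv_eq]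
  simp

/-- the Hessian is jointly continuous -/
theorem hess_cont : ContinuousOn (fun z : E2 × E2 => fderiv ℝ (∇ (H.S z.1)) z.2)
    (ball 0 H.r ×ˢ ball 0 H.r) := by
  rw [continuousOn_clm_apply]
  intro v
  have h1 : ∀ w : E2, ContinuousOn (fun z : E2 × E2 => ⟪fderiv ℝ (∇ (H.S z.1)) z.2 v, w⟫)
      (ball 0 H.r ×ˢ ball 0 H.r) := by
    intro w
    have h2 : ContinuousOn (fun z : E2 × E2 => iteratedFDeriv ℝ 2 (H.S z.1) z.2 ![v, w])
        (ball 0 H.r ×ˢ ball 0 H.r) := by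
      have h3 := H.S_cont 2
      exact ((ContinuousMultilinearMap.apply ℝ (fun _ : Fin 2 => E2) ℝ
        ![v, w]).continuous.comp_continuousOn h3)
    refine h2.congr fun z hz => ?_
    exact inner_fderiv_gradient (smoothAt_S H hz.1 hz.2) v w
  exact continuousOn_of_inner h1

/-- the gradient is jointly continuous -/
theorem grad_cont : ContinuousOn (fun z : E2 × E2 => ∇ (H.S z.1) z.2)
    (ball 0 H.r ×ˢ ball 0 H.r) := by
  have h1 : ∀ w : E2, ContinuousOn (fun z : E2 × E2 => ⟪∇ (H.S z.1) z.2, w⟫)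
      (ball 0 H.r ×ˢ ball 0 H.r) := by
    intro w
    have h2 : ContinuousOn (fun z : E2 × E2 => iteratedFDeriv ℝ 1 (H.S z.1) z.2 ![w])
        (ball 0 H.r ×ˢ ball 0 H.r) :=
      ((ContinuousMultilinearMap.apply ℝ (fun _ : Fin 1 => E2) ℝ
        ![w]).continuous.comp_continuousOn (H.S_cont 1))
    refine h2.congr fun z hz => ?_
    simp only
    rw [iteratedFDeriv_one_apply]
    simp only [gradient, toDual_symm_apply]
    simp
  exact continuousOn_of_inner h1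

/-- the Hessian is small for small leaves -/
theorem hess_small {q₀ : E2} (hq₀ : q₀ ∈ ball (0 : E2) H.r) {ε : ℝ} (hε : 0 < ε) :
    ∀ᶠ z : E2 × E2 in 𝓝 (0, q₀), ‖fderiv ℝ (∇ (H.S z.1)) z.2‖ < ε := by
  have h1 : ContinuousAt (fun z : E2 × E2 => fderiv ℝ (∇ (H.S z.1)) z.2) (0, q₀) :=
    (hess_cont H).continuousAt ((isOpen_ball.prod isOpen_ball).mem_nhds
      ⟨mem_ball_self H.r_pos, hq₀⟩)
  have h2 := h1.norm.tendsto
  simp only [hess_zero H hq₀, norm_zero] at h2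
  exact h2.eventually (gt_mem_nhds hε)

/-- the gradient is small for small leaves -/
theorem grad_small {q₀ : E2} (hq₀ : q₀ ∈ ball (0 : E2) H.r) {ε : ℝ} (hε : 0 < ε) :
    ∀ᶠ z : E2 × E2 in 𝓝 (0, q₀), ‖∇ (H.S z.1) z.2‖ < ε := by
  have h1 : ContinuousAt (fun z : E2 × E2 => ∇ (H.S z.1) z.2) (0, q₀) :=
    (grad_cont H).continuousAt ((isOpen_ball.prod isOpen_ball).mem_nhds
      ⟨mem_ball_self H.r_pos, hq₀⟩)
  have h2 := h1.norm.tendsto
  simp only [grad_zero H hq₀, norm_zero] at h2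
  exact h2.eventually (gt_mem_nhds hε)

/-- **Uniqueness of the intersection** of the leaf `y` of `H'` with a fixed leaf `κ = ∇ (H.S x)`
near `p = 0`. -/
theorem inter_unique (H' : Half) {x : E2} (hx : x ∈ ball (0 : E2) H.r)
    (hx' : x ∈ ball (0 : E2) H'.r) :
    ∀ᶠ z : E2 × (E2 × E2) in 𝓝 (0, (0, 0)), z.2.1 = ∇ (H'.S z.1) (∇ (H.S x) z.2.1) →
      z.2.2 = ∇ (H'.S z.1) (∇ (H.S x) z.2.2) → z.2.1 = z.2.2 := by
  set κ := ∇ (H.S x) with hκ
  have hκs : ContDiffAt ℝ ∞ κ 0 := smoothAt_grad H hx (mem_ball_self H.r_pos)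
  have hκ0 : κ 0 = x := H.S_grad x hx
  obtain ⟨K, s, hs, hK⟩ := (hκs.of_le (m := 1) (by simp)).exists_lipschitzOnWith
  have hεpos : (0:ℝ) < 1 / (2 * (K + 1)) := by positivity
  have hsm : ∀ᶠ z : E2 × E2 in 𝓝 (0, x), ‖fderiv ℝ (∇ (H'.S z.1)) z.2‖ < 1 / (2 * (K + 1)) :=
    hess_small H' hx' hεpos
  rw [nhds_prod_eq, Filter.eventually_prod_iff] at hsm
  obtain ⟨pa, hpa, pb, hpb, hab⟩ := hsm
  obtain ⟨ρ, hρ, hρb⟩ := Metric.eventually_nhds_iff_ball.mp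
    (hpb.and (isOpen_ball.mem_nhds hx'))
  have hnear : ∀ᶠ p in 𝓝 (0 : E2), p ∈ s ∧ κ p ∈ ball x ρ := by
    have h1 : ∀ᶠ p in 𝓝 (0 : E2), κ p ∈ ball x ρ := by
      have := hκs.continuousAt.tendsto
      rw [hκ0] at this
      exact this.eventually (isOpen_ball.mem_nhds (mem_ball_self hρ))
    filter_upwards [hs, h1] with p h2 h3 using ⟨h2, h3⟩
  have hy : ∀ᶠ y in 𝓝 (0 : E2), pa y ∧ y ∈ ball (0 : E2) H'.r :=
    hpa.and (isOpen_ball.mem_nhds (mem_ball_self H'.r_pos))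
  rw [nhds_prod_eq, nhds_prod_eq]
  refine (hy.prod_mk (hnear.prod_mk hnear)).mono ?_
  rintro ⟨y, p, p'⟩ ⟨⟨hy1, hy2⟩, ⟨hp1, hp2⟩, ⟨hp1', hp2'⟩⟩ he he'
  simp only at he he' hy1 hy2 hp1 hp2 hp1' hp2' ⊢
  have hlip : ‖∇ (H'.S y) (κ p) - ∇ (H'.S y) (κ p')‖ ≤ 1 / (2 * (K + 1)) * ‖κ p - κ p'‖ := by
    refine Convex.norm_image_sub_le_of_norm_fderiv_le (𝕜 := ℝ) (s := ball x ρ) ?_ ?_
      (convex_ball x ρ) hp2' hp2
    · intro q hq
      exact (smoothAt_grad H' hy2 (hρb q hq).2).differentiableAt (by simp)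
    · intro q hq
      exact (hab hy1 (hρb q hq).1).le
  have hK' : ‖κ p - κ p'‖ ≤ K * ‖p - p'‖ := by
    have := hK.dist_le_mul p hp1 p' hp1'
    rwa [dist_eq_norm, dist_eq_norm] at this
  have h1 : ‖p - p'‖ ≤ 1 / (2 * (K + 1)) * (K * ‖p - p'‖) := by
    calc ‖p - p'‖ = ‖∇ (H'.S y) (κ p) - ∇ (H'.S y) (κ p')‖ := by rw [← he, ← he']
      _ ≤ 1 / (2 * (K + 1)) * ‖κ p - κ p'‖ := hlip
      _ ≤ 1 / (2 * (K + 1)) * (K * ‖p - p'‖) := by gcongr
  have h2 : (1 : ℝ) / (2 * (K + 1)) * (K * ‖p - p'‖) ≤ 1 / 2 * ‖p - p'‖ := by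
    have h3 : (1 : ℝ) / (2 * (K + 1)) * K ≤ 1 / 2 := by
      rw [div_mul_eq_mul_div, one_mul, div_le_div_iff₀ (by positivity) (by norm_num)]
      have : (0:ℝ) ≤ K := K.2
      linarith
    calc (1 : ℝ) / (2 * (K + 1)) * (K * ‖p - p'‖) = 1 / (2 * (K + 1)) * K * ‖p - p'‖ := by ring
      _ ≤ 1 / 2 * ‖p - p'‖ := by gcongr
  have h3 : ‖p - p'‖ ≤ 0 := by linarith
  exact sub_eq_zero.mp (norm_le_zero_iff.mp h3)

end Vale.Agent.P207.N3.H143
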