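import Vale.Agent.P207.N3.Top.Defs

/-!
# P207, N3, Case 2: the link between the second jets and the tensor `N`

If `H (Q u) = K u - c DQ(u) N(u) DQ(u)ᵀ` near `u₀` with a local diffeomorphism `Q` and smooth `H`,
`K`, then `N` is smooth at `u₀`; hence `Rough` fails.
-/

open Set Filter Topology Metric
open scoped ContDiff

noncomputable section

namespace Vale.Agent.P207.N3.H143

theorem contDiffAt_of_link {N : E2 → E2 →L[ℝ] E2} {Q : E2 → E2} {K H : E2 → E2 →L[ℝ] E2}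
    {u₀ : E2} {c : ℝ} (hc : c ≠ 0) (hQ : ContDiffAt ℝ ∞ Q u₀) (hdet : (fderiv ℝ Q u₀).det ≠ 0)
    (hK : ContDiffAt ℝ ∞ K u₀) (hH : ContDiffAt ℝ ∞ H (Q u₀))
    (heq : ∀ᶠ u in 𝓝 u₀, H (Q u) = K u - c • (fderiv ℝ Q u ∘L N u ∘L
      ContinuousLinearMap.adjoint (fderiv ℝ Q u))) :
    ContDiffAt ℝ ∞ N u₀ := by
  have hD : ContDiffAt ℝ ∞ (fderiv ℝ Q) u₀ := hQ.fderiv_right (m := ∞) (by norm_cast)
  set e₀ : E2 ≃L[ℝ] E2 := (fderiv ℝ Q u₀).toContinuousLinearEquivOfDetNeZero hdet with he₀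
  have he₀' : (e₀ : E2 →L[ℝ] E2) = fderiv ℝ Q u₀ := by
    rw [he₀]; simp
  have hI : ContDiffAt ℝ ∞ (fun u => ContinuousLinearMap.inverse (fderiv ℝ Q u)) u₀ := by
    have h1 : ContDiffAt ℝ ∞ (ContinuousLinearMap.inverse (R := ℝ) (M := E2) (M₂ := E2))
        (fderiv ℝ Q u₀) := by
      rw [← he₀']
      exact contDiffAt_map_inverse e₀
    exact h1.comp u₀ hD
  have hA : ContDiffAt ℝ ∞ (fun u => ContinuousLinearMap.adjoint
      (ContinuousLinearMap.inverse (fderiv ℝ Q u))) u₀ := by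
    have h1 : ContDiff ℝ ∞ (fun A : E2 →L[ℝ] E2 => ContinuousLinearMap.adjoint A) := by
      let F : (E2 →L[ℝ] E2) →L[ℝ] (E2 →L[ℝ] E2) :=
        LinearMap.toContinuousLinearMap
          { toFun := fun A : E2 →L[ℝ] E2 => ContinuousLinearMap.adjoint A
            map_add' := fun A B => by simp
            map_smul' := fun r A => by simp }
      exact F.contDiff
    exact h1.contDiffAt.comp u₀ hI
  have hmain : ContDiffAt ℝ ∞ (fun u => c⁻¹ • (ContinuousLinearMap.inverse (fderiv ℝ Q u) ∘L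
      (K u - H (Q u)) ∘L ContinuousLinearMap.adjoint
        (ContinuousLinearMap.inverse (fderiv ℝ Q u)))) u₀ := by
    refine ContDiffAt.const_smul _ ?_
    exact hI.clm_comp ((hK.sub (hH.comp u₀ hQ)).clm_comp hA)
  refine hmain.congr_of_eventuallyEq ?_
  have hne : ∀ᶠ u in 𝓝 u₀, (fderiv ℝ Q u).det ≠ 0 := by
    have h1 : ContinuousAt (fun u => (fderiv ℝ Q u).det) u₀ :=
      (ContinuousLinearMap.continuous_det.continuousAt).comp hD.continuousAt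
    exact h1.eventually_ne hdet
  filter_upwards [heq, hne] with u hu hdu
  set A : E2 ≃L[ℝ] E2 := (fderiv ℝ Q u).toContinuousLinearEquivOfDetNeZero hdu with hAdef
  have hA' : (A : E2 →L[ℝ] E2) = fderiv ℝ Q u := by
    rw [hAdef]; simp
  have hinv : ContinuousLinearMap.inverse (fderiv ℝ Q u) = (A.symm : E2 →L[ℝ] E2) := by
    rw [← hA', ContinuousLinearMap.inverse_equiv]
  have h1 : K u - H (Q u) = c • (fderiv ℝ Q u ∘L N u ∘L
      ContinuousLinearMap.adjoint (fderiv ℝ Q u)) := by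
    rw [hu]; abel
  rw [hinv, h1, ← hA']
  have h2 : (A.symm : E2 →L[ℝ] E2) ∘L (A : E2 →L[ℝ] E2) = ContinuousLinearMap.id ℝ E2 := by
    ext v i; simp
  have h3 : ContinuousLinearMap.adjoint (A : E2 →L[ℝ] E2) ∘L
      ContinuousLinearMap.adjoint (A.symm : E2 →L[ℝ] E2) = ContinuousLinearMap.id ℝ E2 := by
    rw [← ContinuousLinearMap.adjoint_comp, h2]
    symm
    rw [ContinuousLinearMap.eq_adjoint_iff]
    intro a b
    simp
  have h4 : (A.symm : E2 →L[ℝ] E2) ∘L (c • ((A : E2 →L[ℝ] E2) ∘L N u ∘L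
      ContinuousLinearMap.adjoint (A : E2 →L[ℝ] E2))) ∘L
        ContinuousLinearMap.adjoint (A.symm : E2 →L[ℝ] E2) = c • N u := by
    calc (A.symm : E2 →L[ℝ] E2) ∘L (c • ((A : E2 →L[ℝ] E2) ∘L N u ∘L
      ContinuousLinearMap.adjoint (A : E2 →L[ℝ] E2))) ∘L
        ContinuousLinearMap.adjoint (A.symm : E2 →L[ℝ] E2)
        = c • (((A.symm : E2 →L[ℝ] E2) ∘L (A : E2 →L[ℝ] E2)) ∘L N u ∘L
          (ContinuousLinearMap.adjoint (A : E2 →L[ℝ] E2) ∘L
            ContinuousLinearMap.adjoint (A.symm : E2 →L[ℝ] E2))) := by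
          ext v i; simp
      _ = c • N u := by rw [h2, h3]; ext v i; simp
  rw [h4, smul_smul, inv_mul_cancel₀ hc, one_smul]

variable {Γ X B : Type} [Group Γ] [MetricSpace X] [ProperSpace X] [MulAction Γ X]
  [IsIsometricSMul Γ X] [TopologicalSpace B] [CompactSpace B] [T2Space B] [MulAction Γ B]
  [ContinuousConstSMul Γ B]

theorem not_rough_of_contDiffAt {L : Leaf Γ X B} {T : Tens L} {x : X} {u₀ : E2}
    (hu₀ : u₀ ∈ ball (0 : E2) 3) (h : ContDiffAt ℝ ∞ (T.N x) u₀) (k₀ : ℕ) : ¬ Rough T k₀ := by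
  intro hR
  have h1 : ContDiffAt ℝ (k₀ : ℕ∞) (T.N x) u₀ := h.of_le (by exact_mod_cast le_top)
  obtain ⟨O, hO, hcd⟩ := h1.contDiffOn (m := (k₀ : ℕ∞)) le_rfl (by simp)
  have hO' : O ∈ 𝓝 u₀ := by simpa using hO
  obtain ⟨W, hWO, hW, huW⟩ := _root_.mem_nhds_iff.mp hO'
  refine hR x (W ∩ ball 0 3) (hW.inter isOpen_ball) inter_subset_right ⟨u₀, huW, hu₀⟩ ?_
  exact hcd.mono fun u hu => by
    have : u ∈ O := hWO hu.1
    simpa using this

/-- **Link ⇒ not rough.** -/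
theorem link_not_rough {L : Leaf Γ X B} {T : Tens L} {x : X} {u₀ : E2}
    (hu₀ : u₀ ∈ ball (0 : E2) 3) {Q : E2 → E2} {K H : E2 → E2 →L[ℝ] E2} {c : ℝ} (hc : c ≠ 0)
    (hQ : ContDiffAt ℝ ∞ Q u₀) (hdet : (fderiv ℝ Q u₀).det ≠ 0)
    (hK : ContDiffAt ℝ ∞ K u₀) (hH : ContDiffAt ℝ ∞ H (Q u₀))
    (heq : ∀ᶠ u in 𝓝 u₀, H (Q u) = K u - c • (fderiv ℝ Q u ∘L T.N x u ∘L
      ContinuousLinearMap.adjoint (fderiv ℝ Q u))) (k₀ : ℕ) : ¬ Rough T k₀ :=
  not_rough_of_contDiffAt hu₀ (contDiffAt_of_link hc hQ hdet hK hH heq) k₀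

end Vale.Agent.P207.N3.H143
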