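import Vale.Agent.P207.N3.H143.LevSq
import Vale.Agent.P207.N3.H143.RegL
import Vale.Agent.P207.N3.H975.Slow
import Vale.Agent.P207.N3.H250.Glue
import Vale.Agent.P207.N3.H12.NFSide
import Vale.Agent.P207.N3.H547.LightFeed
import Vale.Agent.P207.N3.H545.Case2End
import Vale.Agent.P207.N3.H803.PFeed
import Vale.Agent.P207.N3.H319.Fin

/-!
# P207, line N3, Case 2 (4.6): not all closed orbits are of type F

`case2_of S`: the field `case2` of `Rem`.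
-/

open Set Filter Topology Metric MeasureTheory InnerProductSpace
open scoped ContDiff RealInnerProductSpace Gradient

noncomputable section

namespace Vale.Agent.P207.N3.H143

open H790 (NF)

variable {Γ X B : Type} [Group Γ] [MetricSpace X] [ProperSpace X] [MulAction Γ X]
  [IsIsometricSMul Γ X] [TopologicalSpace B] [CompactSpace B] [T2Space B] [MulAction Γ B]
  [ContinuousConstSMul Γ B] {L : Leaf Γ X B} [MeasurableSpace B] [BorelSpace B]

/-- regular leaves, one side -/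
theorem regLeaf_side {A : Area L} {T : Tens L} {k₀ : ℕ} {o : Orb L} (t : LevForm A T k₀ o)
    (ht : t.i = 1) {μ₁ μ₂ a a' : ℝ} {j j' : ℕ} (hN : t.n.N = .tri μ₁ μ₂ a j)
    (h12 : |μ₂| < |μ₁|) {c : ℝ} (h4 : H319.P4c L c)
    (hreg : ∀ (W : H147.Fwd o t.n.x t.n.N.fn c) (k : Γ), k • o.pos ≠ o.neg →
      (W.Bm k (EuclideanSpace.single 0 1)) 0 ≠ 0)
    {D : PF} {x y : B → E2} {ξ η : E2 → B} (S : Side T o.β⁻¹ o.neg o.pos x y D.X D.Y)
    (hL : H250.LabD x y ξ η o.neg o.pos) (hη : ContinuousAt η 0)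
    (hM : ∀ p, D.X.M p = (NF.tri μ₁ μ₂ a' j').inv p) :
    ∀ ε > 0, ∃ xs ∈ ball (0 : E2) ε, H547.RegLeaf D xs := by
  obtain ⟨W⟩ := (h4.2 o t.n).1
  intro ε hε
  exact exists_regLeaf t ht W S hL.x0 hL.y0 hL.yc hη hL.η0 hL.xη hL.ξc hL.ξ0 hL.yξ
    (H975.slow hN h12 h4.1 W S hL.x0 hL.y0 hL.yc.self_of_nhds (.of_forall hM)) (hreg W) hε

variable {V : Type} [NormedAddCommGroup V] [NormedSpace ℝ V] [FiniteDimensional ℝ V]

/-- **the field `case2` of `Rem`** -/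
theorem case2_of (S : Suite L V) : ∀ k₀, Rough S.T k₀ → Types S.A S.T k₀ →
    (∀ p : Typed S.A S.T k₀, p.t.IsF) → ∀ c, H319.P4c L c → ∀ o₀ : Orb L,
    (∀ o : Orb L, o.lam = o₀.lam → ∀ (n : Nor L o) (W : H147.Fwd o n.x n.N.fn c) (k : Γ),
      k • o.pos ≠ o.neg → (W.Bm k (EuclideanSpace.single 0 1)) 0 ≠ 0) → False := by
  intro k₀ hR hT hF c h4 o₀ hreg
  obtain ⟨o, t, t', ho, hti, hti', hs, hs'⟩ := lev_both hT hF o₀
  obtain ⟨R, -, -, ⟨S₁⟩, ⟨S₂⟩⟩ := S.exists_pOrb o t.n t'.n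
  obtain ⟨μ₁, μ₂, a, k, hN⟩ := H319.tri_of_split hs
  have h12 : |μ₂| < |μ₁| := by rw [hN] at hs; exact hs
  obtain ⟨n'', a', k', hN'', hg, hsp⟩ := R.split hN h12
  have hd : H319.DualIn (.tri μ₁ μ₂ a k) t'.n.N R.M := hN ▸ R.dual
  obtain ⟨b, j, p, q, -, -, hN', -, -⟩ := hd.split h12
  have hlam : o.flip.lam = o₀.lam := by
    rw [(H319.lam1_flip (o := o) (o' := o.flip) rfl t.n t'.n R.dual.dual).2.2, ho]
  -- regular leaves on both sides
  have hL := H250.labU o t.n t'.n R.M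
  have hL' := H250.labS o t.n t'.n R.M
  have r1 : ∀ ε > 0, ∃ xs ∈ ball (0 : E2) ε, H547.RegLeaf R.D.symm xs :=
    regLeaf_side t hti hN h12 h4 (hreg o ho t.n) (D := R.D.symm) S₁ hL
      t.n.inv_cont.continuousAt hsp.YM
  have r2 : ∀ ε > 0, ∃ xs ∈ ball (0 : E2) ε, H547.RegLeaf R.D xs :=
    regLeaf_side t' hti' hN' h12 h4 (hreg o.flip hlam t'.n) (D := R.D) S₂ hL'
      (H722.GeoIn.xip_cont o t'.n R.M).continuousAt hsp.XM
  -- the exponents
  set κ := Real.log |μ₁| with hκ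
  set ℓ := Real.log |μ₂| with hℓ
  have m2 : 1 < |μ₂| := hsp.ok.1
  have m1 : 1 < |μ₁| := m2.trans h12
  have hℓ0 : 0 < ℓ := Real.log_pos m2
  have hκℓ : ℓ < κ := Real.log_lt_log (by linarith) h12
  have e1 : |μ₁| = Real.exp κ := (Real.exp_log (by linarith)).symm
  have e2 : |μ₂| = Real.exp ℓ := (Real.exp_log (by linarith)).symm
  obtain ⟨K, hK⟩ := exists_nat_gt (4 * κ / ℓ + 1)
  have hW : 4 * κ < ((K : ℝ) - 1) * ℓ := by
    have h1 : 4 * κ / ℓ < (K : ℝ) - 1 := by linarith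
    rwa [div_lt_iff₀ hℓ0] at h1
  have hκ0 : 0 < κ := hℓ0.trans hκℓ
  have hK1 : 1 ≤ K := by
    have h1 : (1 : ℝ) < K := by
      have h2 : 0 < 4 * κ / ℓ := by positivity
      linarith
    exact_mod_cast h1.le
  have hKℓ : 2 * κ < ((K : ℝ) + 1) * ℓ := by nlinarith
  obtain ⟨FY⟩ := H803.feed_split_Y hsp K
  obtain ⟨FX⟩ := H803.feed_split_X hsp K
  have lY := H547.light_split hsp e1 e2 hK1 hKℓ FY r2
  have lX := H547.light_split hsp.symm e1 e2 hK1 hKℓ (D := R.D.symm) FX r1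
  have hL2 := hL'
  rw [H722.flip_neg, H722.flip_pos] at S₂ hL2
  exact H545.case2_end S₁ S₂ hL.x0 hL.y0 hL.xc.self_of_nhds hL.yc.self_of_nhds
    (f := o.x) rfl rfl hℓ0 hκℓ hW FY FX lY lX k₀ hR

end Vale.Agent.P207.N3.H143
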