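import Vale.Agent.P207.N3.H143.BiW
import Vale.Agent.P207.N3.H254.Crit
import Vale.Agent.P207.N3.H254.Bil

/-!
# P207, N3, P17 (iii): coefficients of the product formula at single variables
-/

open Finset

set_option linter.unusedSectionVars false

namespace Vale.Agent.P207.N3.H143

open H254 (Lb wtl wm vm pK TwoId)

variable {J J' : Type*}

/-! ### Splitting of monomials -/

theorem wm_sumElim_left (wJ : J → ℝ) (μ : J →₀ ℕ) (ν : J' →₀ ℕ) :
    wm (Sum.elim wJ 0) (μ.sumElim ν) = wm wJ μ := by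
  have h1 : wm (Sum.elim wJ (0 : J' → ℝ)) (μ.sumElim ν) =
      (μ.sumElim ν).sum fun j n => (n : ℝ) * Sum.elim wJ (0 : J' → ℝ) j := rfl
  have h2 : wm wJ μ = μ.sum fun j n => (n : ℝ) * wJ j := rfl
  rw [h1, h2, Finsupp.sum_sumElim]
  have h3 : ν.sum ((fun (j : J ⊕ J') (n : ℕ) => (n : ℝ) * Sum.elim wJ (0 : J' → ℝ) j) ∘ Sum.inr)
      = 0 := by
    unfold Finsupp.sum
    exact Finset.sum_eq_zero fun j _ => by simp
  rw [h3, add_zero]
  rfl

theorem wm_sumElim_right (wJ : J' → ℝ) (μ : J →₀ ℕ) (ν : J' →₀ ℕ) :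
    wm (Sum.elim 0 wJ) (μ.sumElim ν) = wm wJ ν := by
  have h1 : wm (Sum.elim (0 : J → ℝ) wJ) (μ.sumElim ν) =
      (μ.sumElim ν).sum fun j n => (n : ℝ) * Sum.elim (0 : J → ℝ) wJ j := rfl
  have h2 : wm wJ ν = ν.sum fun j n => (n : ℝ) * wJ j := rfl
  rw [h1, h2, Finsupp.sum_sumElim]
  have h3 : μ.sum ((fun (j : J ⊕ J') (n : ℕ) => (n : ℝ) * Sum.elim (0 : J → ℝ) wJ j) ∘ Sum.inl)
      = 0 := by
    unfold Finsupp.sum
    exact Finset.sum_eq_zero fun j _ => by simp
  rw [h3, zero_add]
  rfl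

theorem mval_apply {Y : Type*} (a : J → Y → ℝ) (μ : J →₀ ℕ) (y : Y) :
    mval a μ y = vm (fun j => a j y) μ := by
  unfold mval vm Finsupp.prod
  rw [Finset.prod_apply]
  rfl

theorem vm_sumElim (v : J → ℝ) (v' : J' → ℝ) (μ : J →₀ ℕ) (ν : J' →₀ ℕ) :
    vm (Sum.elim v v') (μ.sumElim ν) = vm v μ * vm v' ν := by
  have h1 : vm (Sum.elim v v') (μ.sumElim ν) =
      (μ.sumElim ν).prod fun j n => (Sum.elim v v' j) ^ n := rfl
  rw [h1, Finsupp.prod_sumElim]
  rfl

theorem exists_sumElim (α : J ⊕ J' →₀ ℕ) : ∃ (μ : J →₀ ℕ) (ν : J' →₀ ℕ), α = μ.sumElim ν :=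
  ⟨_, _, (Finsupp.comapDomain_sumElim_comapDomain α).symm⟩

theorem sumElim_inj {μ μ' : J →₀ ℕ} {ν ν' : J' →₀ ℕ} (h : μ.sumElim ν = μ'.sumElim ν') :
    μ = μ' ∧ ν = ν' := by
  constructor
  · ext j
    have := DFunLike.congr_fun h (Sum.inl j)
    simpa using this
  · ext j
    have := DFunLike.congr_fun h (Sum.inr j)
    simpa using this

/-- a bi-weight part as a double sum -/
theorem two_split {Y X : Type*} (p : MvPolynomial (J ⊕ J') ℝ) (wJ : J → ℝ) (wJ' : J' → ℝ)
    (v : J → Y → ℝ) (v' : J' → X → ℝ) (w w' : ℝ) (M : Finset (J →₀ ℕ)) (N : Finset (J' →₀ ℕ))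
    (hM : ∀ μ ∈ M, wm wJ μ = w) (hN : ∀ ν ∈ N, wm wJ' ν = w')
    (hsub : ∀ μ ν, p.coeff (μ.sumElim ν) ≠ 0 → wm wJ μ = w → wm wJ' ν = w' → μ ∈ M ∧ ν ∈ N)
    (y : Y) (x : X) :
    ∑ μ ∈ M, ∑ ν ∈ N, p.coeff (μ.sumElim ν) * mval v μ y * mval v' ν x =
      ∑ α ∈ p.support.filter (fun α => wm (Sum.elim wJ 0) α = w ∧ wm (Sum.elim 0 wJ') α = w'),
        p.coeff α * vm (Sum.elim (fun j => v j y) fun j => v' j x) α := by
  classical
  rw [← Finset.sum_product']
  have h1 : ∀ z ∈ M ×ˢ N, p.coeff (z.1.sumElim z.2) * mval v z.1 y * mval v' z.2 x =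
      (fun α => p.coeff α * vm (Sum.elim (fun j => v j y) fun j => v' j x) α)
        (z.1.sumElim z.2) := by
    intro z _
    simp only
    rw [vm_sumElim, mval_apply, mval_apply, mul_assoc]
  rw [Finset.sum_congr rfl h1,
    ← Finset.sum_image (s := M ×ˢ N) (g := fun z : (J →₀ ℕ) × (J' →₀ ℕ) => z.1.sumElim z.2)
      (f := fun α => p.coeff α * vm (Sum.elim (fun j => v j y) fun j => v' j x) α)]
  · symm
    refine Finset.sum_subset ?_ ?_
    · intro α hα
      rw [Finset.mem_filter, MvPolynomial.mem_support_iff] at hα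
      obtain ⟨μ, ν, rfl⟩ := exists_sumElim α
      rw [wm_sumElim_left, wm_sumElim_right] at hα
      obtain ⟨hμ, hν⟩ := hsub μ ν hα.1 hα.2.1 hα.2.2
      exact Finset.mem_image.mpr ⟨(μ, ν), Finset.mem_product.mpr ⟨hμ, hν⟩, rfl⟩
    · intro α hα hα'
      obtain ⟨z, hz, rfl⟩ := Finset.mem_image.mp hα
      rw [Finset.mem_product] at hz
      have h2 : p.coeff (z.1.sumElim z.2) = 0 := by
        by_contra h3
        apply hα'
        rw [Finset.mem_filter, MvPolynomial.mem_support_iff, wm_sumElim_left, wm_sumElim_right]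
        exact ⟨h3, hM _ hz.1, hN _ hz.2⟩
      rw [h2, zero_mul]
  · intro z _ z' _ hzz
    obtain ⟨h2, h3⟩ := sumElim_inj hzz
    exact Prod.ext h2 h3

/-! ### Extraction of coefficients -/

theorem prod_single_sq {R : Type*} [CommRing R] [DecidableEq J] {δ : R} (hδ : δ * δ = 0) (i : J)
    (μ : J →₀ ℕ) : (μ.prod fun k n => (if k = i then δ else 0) ^ n) =
      if μ = 0 then 1 else if μ = Finsupp.single i 1 then δ else 0 := by
  classical
  by_cases h0 : μ = 0
  · rw [if_pos h0, h0, Finsupp.prod_zero_index]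
  rw [if_neg h0]
  by_cases h1 : ∃ k ∈ μ.support, k ≠ i
  · obtain ⟨k, hk, hki⟩ := h1
    have h2 : μ ≠ Finsupp.single i 1 := by
      intro h
      rw [h] at hk
      rw [Finsupp.mem_support_iff, Finsupp.single_apply] at hk
      exact hk (if_neg (fun h => hki h.symm))
    rw [if_neg h2]
    unfold Finsupp.prod
    refine Finset.prod_eq_zero hk ?_
    show (if k = i then δ else 0) ^ (μ k) = 0
    rw [if_neg hki, zero_pow (Finsupp.mem_support_iff.mp hk)]
  · push Not at h1
    have h2 : μ = Finsupp.single i (μ i) := by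
      ext k
      by_cases hk : k = i
      · rw [hk, Finsupp.single_eq_same]
      · rw [Finsupp.single_eq_of_ne hk]
        by_contra h3
        exact hk (h1 k (Finsupp.mem_support_iff.mpr h3))
    have h3 : μ i ≠ 0 := by
      intro h
      rw [h, Finsupp.single_zero] at h2
      exact h0 h2
    rw [h2, Finsupp.prod_single_index (by rw [pow_zero]), if_pos rfl]
    by_cases h4 : μ i = 1
    · rw [h4, if_pos rfl, pow_one]
    · rw [if_neg]
      · obtain ⟨m, hm⟩ : ∃ m, μ i = m + 2 := ⟨μ i - 2, by omega⟩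
        rw [hm, pow_add, pow_two, hδ, mul_zero]
      · intro h5
        apply h4
        have := DFunLike.congr_fun h5 i
        simpa using this

/-- evaluation at one infinitesimal -/
theorem aeval_single_sq {R : Type*} [CommRing R] [Algebra ℝ R] [DecidableEq J] {δ : R}
    (hδ : δ * δ = 0) (i : J) (q : MvPolynomial J ℝ) (h0 : q.coeff 0 = 0) :
    MvPolynomial.aeval (fun k => if k = i then δ else 0) q =
      δ * algebraMap ℝ R (q.coeff (Finsupp.single i 1)) := by
  have key : ∀ q : MvPolynomial J ℝ, MvPolynomial.aeval (fun k => if k = i then δ else 0) q =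
      algebraMap ℝ R (q.coeff 0) + δ * algebraMap ℝ R (q.coeff (Finsupp.single i 1)) := by
    intro q
    induction q using MvPolynomial.induction_on' with
    | monomial μ a =>
      rw [MvPolynomial.aeval_monomial, prod_single_sq hδ, MvPolynomial.coeff_monomial,
        MvPolynomial.coeff_monomial]
      by_cases h1 : μ = 0
      · have h2 : (0 : J →₀ ℕ) ≠ Finsupp.single i 1 := by
          intro h
          have := DFunLike.congr_fun h i
          simp at this
        rw [if_pos h1, if_pos h1, h1, if_neg h2, map_zero, mul_zero, mul_one, add_zero]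
      · rw [if_neg h1, if_neg h1, map_zero, zero_add]
        by_cases h2 : μ = Finsupp.single i 1
        · rw [if_pos h2, if_pos h2, mul_comm]
        · rw [if_neg h2, if_neg h2, map_zero, mul_zero, mul_zero]
    | add p q hp hq =>
      rw [map_add, hp, hq, MvPolynomial.coeff_add, MvPolynomial.coeff_add, map_add, map_add]
      ring
  rw [key, h0, map_zero, zero_add]


open DualNumber in
/-- the coefficient of a product of two variables -/
theorem coeff_two [DecidableEq J] [DecidableEq J'] (p : MvPolynomial (J ⊕ J') ℝ) (i : J) (j : J') :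
    TrivSqZeroExt.snd (TrivSqZeroExt.snd (MvPolynomial.aeval (Sum.elim
      (fun k => if k = i then (DualNumber.eps : DualNumber (DualNumber ℝ)) else 0)
      fun k => if k = j then TrivSqZeroExt.inl DualNumber.eps else 0) p)) =
      p.coeff ((Finsupp.single i 1).sumElim (Finsupp.single j 1)) := by
  set δ : DualNumber (DualNumber ℝ) := DualNumber.eps with hδ
  set δ' : DualNumber (DualNumber ℝ) := TrivSqZeroExt.inl DualNumber.eps with hδ'
  have hs : δ * δ = 0 := DualNumber.eps_mul_eps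
  have hs' : δ' * δ' = 0 := by
    rw [hδ', ← TrivSqZeroExt.inl_mul, DualNumber.eps_mul_eps, TrivSqZeroExt.inl_zero]
  induction p using MvPolynomial.induction_on' with
  | monomial γ a =>
    obtain ⟨μ, ν, rfl⟩ := exists_sumElim γ
    rw [MvPolynomial.aeval_monomial, ← Algebra.smul_def, Finsupp.prod_sumElim]
    have e1 : (μ.prod ((fun (k : J ⊕ J') (n : ℕ) => Sum.elim (fun k => if k = i then δ else 0)
        (fun k => if k = j then δ' else 0) k ^ n) ∘ Sum.inl)) =
        μ.prod fun k n => (if k = i then δ else 0) ^ n := rfl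
    have e2 : (ν.prod ((fun (k : J ⊕ J') (n : ℕ) => Sum.elim (fun k => if k = i then δ else 0)
        (fun k => if k = j then δ' else 0) k ^ n) ∘ Sum.inr)) =
        ν.prod fun k n => (if k = j then δ' else 0) ^ n := rfl
    rw [e1, e2, prod_single_sq (R := DualNumber (DualNumber ℝ)) hs i μ,
      prod_single_sq (R := DualNumber (DualNumber ℝ)) hs' j ν, MvPolynomial.coeff_monomial,
      TrivSqZeroExt.snd_smul, TrivSqZeroExt.snd_smul]
    have z1 : (0 : J →₀ ℕ) ≠ Finsupp.single i 1 := by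
      intro h
      have := DFunLike.congr_fun h i
      simp at this
    have z2 : (0 : J' →₀ ℕ) ≠ Finsupp.single j 1 := by
      intro h
      have := DFunLike.congr_fun h j
      simp at this
    by_cases h1 : μ = Finsupp.single i 1
    · by_cases h2 : ν = Finsupp.single j 1
      · rw [h1, h2, if_neg z1.symm, if_neg z2.symm, if_pos rfl, if_pos rfl, if_pos rfl]
        simp [hδ, hδ']
      · have h3 : ¬ (μ.sumElim ν = (Finsupp.single i 1).sumElim (Finsupp.single j 1)) :=
          fun h => h2 (sumElim_inj h).2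
        rw [if_neg h3, h1, if_neg z1.symm, if_pos rfl, if_neg h2]
        split_ifs <;> simp [hδ]
    · have h3 : ¬ (μ.sumElim ν = (Finsupp.single i 1).sumElim (Finsupp.single j 1)) :=
        fun h => h1 (sumElim_inj h).1
      rw [if_neg h3, if_neg h1]
      split_ifs <;> simp [hδ']
  | add p q hp hq =>
    rw [map_add, TrivSqZeroExt.snd_add, TrivSqZeroExt.snd_add, hp, hq, MvPolynomial.coeff_add]

/-- the coefficient of a single variable on the left -/
theorem coeff_one [DecidableEq J] (p : MvPolynomial (J ⊕ J') ℝ) (i : J) (ν : J' →₀ ℕ) :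
    MvPolynomial.coeff ν (TrivSqZeroExt.snd (MvPolynomial.aeval (Sum.elim
      (fun k => if k = i then (DualNumber.eps : DualNumber (MvPolynomial J' ℝ)) else 0)
      fun k => TrivSqZeroExt.inl (MvPolynomial.X k)) p)) =
      p.coeff ((Finsupp.single i 1).sumElim ν) := by
  classical
  set δ : DualNumber (MvPolynomial J' ℝ) := DualNumber.eps with hδ
  have hs : δ * δ = 0 := DualNumber.eps_mul_eps
  induction p using MvPolynomial.induction_on' with
  | monomial γ a =>
    obtain ⟨μ, ν', rfl⟩ := exists_sumElim γ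
    rw [MvPolynomial.aeval_monomial, ← Algebra.smul_def, Finsupp.prod_sumElim]
    have e1 : (μ.prod ((fun (k : J ⊕ J') (n : ℕ) => Sum.elim (fun k => if k = i then δ else 0)
        (fun k => TrivSqZeroExt.inl (MvPolynomial.X k)) k ^ n) ∘ Sum.inl)) =
        μ.prod fun k n => (if k = i then δ else 0) ^ n := rfl
    have e2 : (ν'.prod ((fun (k : J ⊕ J') (n : ℕ) => Sum.elim (fun k => if k = i then δ else 0)
        (fun k => TrivSqZeroExt.inl (MvPolynomial.X k)) k ^ n) ∘ Sum.inr)) =
        TrivSqZeroExt.inl (MvPolynomial.monomial ν' 1) := by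
      rw [← MvPolynomial.prod_X_pow_eq_monomial]
      unfold Finsupp.prod
      have : (TrivSqZeroExt.inl (∏ x ∈ ν'.support, (MvPolynomial.X x : MvPolynomial J' ℝ) ^ ν' x)
          : DualNumber (MvPolynomial J' ℝ)) =
          TrivSqZeroExt.inlHom _ _ (∏ x ∈ ν'.support, (MvPolynomial.X x : MvPolynomial J' ℝ) ^ ν' x)
          := rfl
      rw [this, map_prod]
      refine Finset.prod_congr rfl fun k _ => ?_
      rw [map_pow]
      rfl
    rw [e1, e2, prod_single_sq (R := DualNumber (MvPolynomial J' ℝ)) hs i μ,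
      MvPolynomial.coeff_monomial,
      TrivSqZeroExt.snd_smul, MvPolynomial.coeff_smul]
    have z1 : (0 : J →₀ ℕ) ≠ Finsupp.single i 1 := by
      intro h
      have := DFunLike.congr_fun h i
      simp at this
    by_cases h1 : μ = Finsupp.single i 1
    · rw [h1, if_neg z1.symm, if_pos rfl]
      have e3 : (δ * TrivSqZeroExt.inl (MvPolynomial.monomial ν' 1) :
          DualNumber (MvPolynomial J' ℝ)).snd = MvPolynomial.monomial ν' 1 := by
        rw [DualNumber.snd_mul]
        simp [hδ]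
      rw [e3, MvPolynomial.coeff_monomial]
      by_cases h2 : ν' = ν
      · rw [h2, if_pos rfl, if_pos rfl, smul_eq_mul, mul_one]
      · rw [if_neg h2, if_neg (fun h => h2 (sumElim_inj h).2), smul_zero]
    · rw [if_neg h1, if_neg (fun h => h1 (sumElim_inj h).1)]
      split_ifs <;> simp
  | add p q hp hq =>
    rw [map_add, TrivSqZeroExt.snd_add, MvPolynomial.coeff_add, hp, hq, MvPolynomial.coeff_add]


/-! ### The product formula -/

section

variable {Y X : Type*} {K : ℕ} (S : H254.Side K Y) (S' : H254.Side K X)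

theorem P_coeff_zero (a : ℕ × ℕ) : (S.P a).coeff 0 = 0 := by
  by_contra h
  exact S.P_ne (MvPolynomial.mem_support_iff.2 h) rfl

theorem Q_coeff_zero (a : ℕ × ℕ) : (S.Q a).coeff 0 = 0 := by
  by_contra h
  exact S.Q_ne (MvPolynomial.mem_support_iff.2 h) rfl

/-- the bilinear coefficient -/
noncomputable def bil (h : ℝ) (i j : Lb) : ℝ :=
      (S.Q (1, 0)).coeff (Finsupp.single i 1) * (S'.P (1, 0)).coeff (Finsupp.single j 1)
      + (S.Q (0, 1)).coeff (Finsupp.single i 1) * (S'.P (0, 1)).coeff (Finsupp.single j 1)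
      + (S'.Q (1, 0)).coeff (Finsupp.single j 1) * (S.P (1, 0)).coeff (Finsupp.single i 1)
      + (S'.Q (0, 1)).coeff (Finsupp.single j 1) * (S.P (0, 1)).coeff (Finsupp.single i 1)
      - h * ((S.P (1, 0)).coeff (Finsupp.single i 1) * (S'.P (1, 0)).coeff (Finsupp.single j 1)
        + (S.P (0, 1)).coeff (Finsupp.single i 1) * (S'.P (0, 1)).coeff (Finsupp.single j 1))
      + ((S.P (2, 0)).coeff (Finsupp.single i 1) * (S'.P (2, 0)).coeff (Finsupp.single j 1)
        + (S.P (1, 1)).coeff (Finsupp.single i 1) * (S'.P (1, 1)).coeff (Finsupp.single j 1)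
        + (S.P (1, 1)).coeff (Finsupp.single i 1) * (S'.P (1, 1)).coeff (Finsupp.single j 1)
        + (S.P (0, 2)).coeff (Finsupp.single i 1) * (S'.P (0, 2)).coeff (Finsupp.single j 1))

theorem aeval_pK_two {R : Type*} [CommRing R] [Algebra ℝ R] {δ δ' : R} (hs : δ * δ = 0)
    (hs' : δ' * δ' = 0) (hK : 2 ≤ K) (h : ℝ) (i j : Lb) :
    MvPolynomial.aeval (Sum.elim (fun k => if k = i then δ else 0)
      fun k => if k = j then δ' else 0) (pK h S S') = δ * δ' * algebraMap ℝ R (bil S S' h i j) := by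
  classical
  have hl : ∀ q : MvPolynomial Lb ℝ, q.coeff 0 = 0 →
      MvPolynomial.aeval (Sum.elim (fun k => if k = i then δ else 0)
        fun k => if k = j then δ' else 0) (MvPolynomial.rename Sum.inl q) =
      δ * algebraMap ℝ R (q.coeff (Finsupp.single i 1)) := by
    intro q hq
    rw [MvPolynomial.aeval_rename]
    exact aeval_single_sq hs i q hq
  have hr : ∀ q : MvPolynomial Lb ℝ, q.coeff 0 = 0 →
      MvPolynomial.aeval (Sum.elim (fun k => if k = i then δ else 0)
        fun k => if k = j then δ' else 0) (MvPolynomial.rename Sum.inr q) =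
      δ' * algebraMap ℝ R (q.coeff (Finsupp.single j 1)) := by
    intro q hq
    rw [MvPolynomial.aeval_rename]
    exact aeval_single_sq hs' j q hq
  unfold pK
  rw [H254.EK_map]
  simp only [hl _ (P_coeff_zero S _), hl _ (Q_coeff_zero S _), hr _ (P_coeff_zero S' _),
    hr _ (Q_coeff_zero S' _)]
  have hz : ∀ q : MvPolynomial Lb ℝ, q = 0 → ∀ m, algebraMap ℝ R (q.coeff m) = 0 := by
    intro q hq m
    rw [hq, MvPolynomial.coeff_zero, map_zero]
  rw [H254.EK_bil hs hs'
    (t := fun a => algebraMap ℝ _ ((S.P a).coeff (Finsupp.single i 1)))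
    (x := fun a => algebraMap ℝ _ ((S.Q a).coeff (Finsupp.single i 1)))
    (t' := fun a => algebraMap ℝ _ ((S'.P a).coeff (Finsupp.single j 1)))
    (x' := fun a => algebraMap ℝ _ ((S'.Q a).coeff (Finsupp.single j 1))) hK h
    (hz _ S.P_zero _) (hz _ S.Q_zero _) (hz _ S'.P_zero _) (hz _ S'.Q_zero _)]
  unfold bil
  simp only [Algebra.smul_def, map_mul, map_add, map_sub]

theorem snd_snd (r : ℝ) : TrivSqZeroExt.snd (TrivSqZeroExt.snd
    ((DualNumber.eps : DualNumber (DualNumber ℝ)) * TrivSqZeroExt.inl DualNumber.eps *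
      algebraMap ℝ (DualNumber (DualNumber ℝ)) r)) = r := by
  have h1 : algebraMap ℝ (DualNumber (DualNumber ℝ)) r =
      TrivSqZeroExt.inl (algebraMap ℝ (DualNumber ℝ) r) := rfl
  have h2 : algebraMap ℝ (DualNumber ℝ) r = TrivSqZeroExt.inl r := rfl
  rw [h1, h2]
  simp

/-- the bilinear coefficients of the product formula -/
theorem pK_two (hK : 2 ≤ K) (h : ℝ) (i j : Lb) :
    (pK h S S').coeff ((Finsupp.single i 1).sumElim (Finsupp.single j 1)) = bil S S' h i j := by
  classical
  rw [← coeff_two]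
  set δ : DualNumber (DualNumber ℝ) := DualNumber.eps with hδ
  set δ' : DualNumber (DualNumber ℝ) := TrivSqZeroExt.inl DualNumber.eps with hδ'
  have hs : δ * δ = 0 := DualNumber.eps_mul_eps
  have hs' : δ' * δ' = 0 := by
    rw [hδ', ← TrivSqZeroExt.inl_mul, DualNumber.eps_mul_eps, TrivSqZeroExt.inl_zero]
  have h1 := aeval_pK_two (R := DualNumber (DualNumber ℝ)) S S' hs hs' hK h i j
  exact (congrArg (fun z => TrivSqZeroExt.snd (TrivSqZeroExt.snd z)) h1).trans (snd_snd _)


theorem ev_at_zero {R : Type*} [CommRing R] [Algebra ℝ R] (m : ℕ) (T : ℕ × ℕ → R) :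
    H254.ev m T (0 : Fin 2 → R) = T (0, 0) := by
  unfold H254.ev
  rw [Finset.sum_eq_single_of_mem (0, 0) (H254.mem_tri.2 (by simp))]
  · rw [H254.mon_zero, mul_one, H254.fac_zero, one_smul]
  · intro a _ ha
    have : H254.mon (0 : Fin 2 → R) a = 0 := by
      unfold H254.mon
      by_cases h1 : a.1 = 0
      · have h2 : a.2 ≠ 0 := fun h2 => ha (Prod.ext h1 h2)
        simp [h2]
      · simp [h1]
    rw [this, mul_zero, smul_zero]

theorem ev_zero_T {R : Type*} [CommRing R] [Algebra ℝ R] (m : ℕ) (q : Fin 2 → R) :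
    H254.ev m (0 : ℕ × ℕ → R) q = 0 := by
  unfold H254.ev
  exact Finset.sum_eq_zero fun a _ => by simp

/-- the product formula with `T = 0` -/
theorem EK_lin {R : Type*} [CommRing R] [Algebra ℝ R] {T' X' x : ℕ × ℕ → R} (hK : 1 ≤ K) (h : ℝ)
    (hT' : T' (0, 0) = 0) (hX' : X' (0, 0) = 0) :
    H254.EK K h 0 x T' X' = ∑ b ∈ H254.tri K, H254.fac b •
      (x b * H254.mon (fun i => T' (H254.e i)) b) := by
  have g0 : ∀ q, H254.gr K (0 : ℕ × ℕ → R) q = 0 := by
    intro q
    funext i
    exact ev_zero_T _ _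
  have g1 : H254.gr K T' 0 = fun i => T' (H254.e i) := by
    funext i
    show H254.ev (K - 1) (H254.sh T' (H254.e i)) 0 = _
    rw [ev_at_zero]
    show T' ((0, 0) + H254.e i) = _
    rw [Prod.mk_zero_zero, zero_add]
  obtain ⟨m, rfl⟩ : ∃ m, K = m + 1 := ⟨K - 1, by omega⟩
  unfold H254.EK
  rw [H254.it_succ_fst, H254.it_succ_snd, H254.it_succ_fst, g0, g1]
  unfold H254.FK
  have h1 : H254.he (m + 1) (0 : ℕ × ℕ → R) (fun i => T' (H254.e i)) = 0 := by
    funext i j
    exact ev_zero_T _ _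
  have h2 : ∀ M' : Fin 2 → Fin 2 → R, H254.lo 0 M' = 0 := by
    intro M'
    unfold H254.lo
    simp
  have h3 : H254.ml (m + 1) (0 : R) = 0 := by
    unfold H254.ml
    exact Finset.sum_eq_zero fun i _ => by simp
  rw [h1, h2, h3, ev_zero_T, ev_at_zero, ev_at_zero, hT', hX']
  simp only [Pi.zero_apply, zero_mul, add_zero, sub_zero, smul_zero]
  rfl

/-- the polynomial `∑ fac b q_b X_{e 0}^{b.1} X_{e 1}^{b.2}` -/
noncomputable def GX (a : Lb) : MvPolynomial Lb ℝ :=
  ∑ b ∈ H254.tri K, (H254.fac b * (S.Q b).coeff (Finsupp.single a 1)) •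
    (MvPolynomial.X (Sum.inl (H254.e 0)) ^ b.1 * MvPolynomial.X (Sum.inl (H254.e 1)) ^ b.2)

/-- the part of the product formula linear in `X_a` -/
theorem pK_one (hK : 1 ≤ K) (h : ℝ) (a : ℕ × ℕ) (ν : Lb →₀ ℕ) :
    (pK h S S').coeff ((Finsupp.single (Sum.inr a) 1).sumElim ν) =
      (GX S (Sum.inr a)).coeff ν := by
  classical
  rw [← coeff_one]
  have hs : (DualNumber.eps : DualNumber (MvPolynomial Lb ℝ)) * DualNumber.eps = 0 :=
    DualNumber.eps_mul_eps
  set φ : MvPolynomial (Lb ⊕ Lb) ℝ →ₐ[ℝ] DualNumber (MvPolynomial Lb ℝ) :=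
    MvPolynomial.aeval (Sum.elim
      (fun k => if k = Sum.inr a then (DualNumber.eps : DualNumber (MvPolynomial Lb ℝ)) else 0)
      fun k => TrivSqZeroExt.inl (MvPolynomial.X k)) with hφ
  have hl : ∀ q : MvPolynomial Lb ℝ, q.coeff 0 = 0 → φ (MvPolynomial.rename Sum.inl q) =
      DualNumber.eps * algebraMap ℝ (DualNumber (MvPolynomial Lb ℝ))
        (q.coeff (Finsupp.single (Sum.inr a) 1)) := by
    intro q hq
    rw [hφ, MvPolynomial.aeval_rename]
    exact aeval_single_sq (R := DualNumber (MvPolynomial Lb ℝ)) hs (Sum.inr a) q hq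
  have hr : ∀ q : MvPolynomial Lb ℝ, φ (MvPolynomial.rename Sum.inr q) =
      TrivSqZeroExt.inl q := by
    intro q
    rw [hφ, MvPolynomial.aeval_rename]
    have e1 : ((Sum.elim
      (fun k : Lb => if k = Sum.inr a then (DualNumber.eps : DualNumber (MvPolynomial Lb ℝ)) else 0)
      fun k : Lb => TrivSqZeroExt.inl (MvPolynomial.X k)) ∘ Sum.inr) =
      fun k : Lb => (TrivSqZeroExt.inlAlgHom ℝ (MvPolynomial Lb ℝ) (MvPolynomial Lb ℝ)
        (MvPolynomial.X k) : DualNumber (MvPolynomial Lb ℝ)) := rfl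
    rw [e1, ← MvPolynomial.comp_aeval, AlgHom.comp_apply]
    have e2 : MvPolynomial.aeval (fun k : Lb => (MvPolynomial.X k : MvPolynomial Lb ℝ)) q = q :=
      MvPolynomial.aeval_X_left_apply q
    rw [e2]
    rfl
  have hT : (fun b => φ (MvPolynomial.rename Sum.inl (S.P b))) = 0 := by
    funext b
    rw [hl _ (P_coeff_zero S b)]
    have : (S.P b).coeff (Finsupp.single (Sum.inr a) 1) = 0 := by
      by_contra hne
      rcases S.P_supp b _ (MvPolynomial.mem_support_iff.2 hne) with h1 | h1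
      · have h2 := (Finsupp.single_left_injective one_ne_zero) h1
        cases h2
      · have h2 := h1.1
        rw [Finsupp.degree_single] at h2
        omega
    rw [this, map_zero, mul_zero]
    rfl
  unfold pK
  rw [H254.EK_map, hT]
  simp only [hl _ (Q_coeff_zero S _), hr]
  rw [EK_lin (R := DualNumber (MvPolynomial Lb ℝ)) hK h (by rw [S'.P_zero]; rfl)
    (by rw [S'.Q_zero]; rfl)]
  have hmon : ∀ b, H254.mon (fun i => (TrivSqZeroExt.inl (S'.P (H254.e i)) :
      DualNumber (MvPolynomial Lb ℝ))) b = TrivSqZeroExt.inl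
        (MvPolynomial.X (Sum.inl (H254.e 0)) ^ b.1 * MvPolynomial.X (Sum.inl (H254.e 1)) ^ b.2) := by
    intro b
    unfold H254.mon
    simp only
    rw [S'.P_e hK, S'.P_e hK, TrivSqZeroExt.inl_mul, TrivSqZeroExt.inl_pow, TrivSqZeroExt.inl_pow]
  have hterm : ∀ b, TrivSqZeroExt.snd (H254.fac b • ((DualNumber.eps :
      DualNumber (MvPolynomial Lb ℝ)) * algebraMap ℝ (DualNumber (MvPolynomial Lb ℝ))
        ((S.Q b).coeff (Finsupp.single (Sum.inr a) 1)) *
        H254.mon (fun i => (TrivSqZeroExt.inl (S'.P (H254.e i)) :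
          DualNumber (MvPolynomial Lb ℝ))) b)) =
      (H254.fac b * (S.Q b).coeff (Finsupp.single (Sum.inr a) 1)) •
    (MvPolynomial.X (Sum.inl (H254.e 0)) ^ b.1 * MvPolynomial.X (Sum.inl (H254.e 1)) ^ b.2) := by
    intro b
    rw [hmon, TrivSqZeroExt.snd_smul]
    have h1 : algebraMap ℝ (DualNumber (MvPolynomial Lb ℝ))
        ((S.Q b).coeff (Finsupp.single (Sum.inr a) 1)) = TrivSqZeroExt.inl
          (algebraMap ℝ (MvPolynomial Lb ℝ) ((S.Q b).coeff (Finsupp.single (Sum.inr a) 1))) := rfl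
    rw [h1, mul_smul]
    congr 1
    rw [Algebra.smul_def]
    simp
  unfold GX
  rw [TrivSqZeroExt.snd_sum]
  congr 1
  exact Finset.sum_congr rfl fun b _ => hterm b

end

end Vale.Agent.P207.N3.H143
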