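import Vale.Agent.P207.N3.Top.Orb
import Vale.Agent.P207.N3.H503.Chg
import Vale.Agent.P207.N3.H319.P16

/-!
# P207, N3, Case 2: level forms on both sides of a closed orbit

The level form of an orbit is a level form of every orbit with the same frame and the same or the
squared element. So, if all typed orbits are of type F, `o.sqr` and `o.sqr.flip` have level forms.
-/

open Set Filter Topology Metric MeasureTheory
open scoped ContDiff

noncomputable section

namespace Vale.Agent.P207.N3.H143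

open H790 (NF)

variable {Γ X B : Type} [Group Γ] [MetricSpace X] [ProperSpace X] [MulAction Γ X]
  [IsIsometricSMul Γ X] [TopologicalSpace B] [CompactSpace B] [T2Space B] [MulAction Γ B]
  [ContinuousConstSMul Γ B] {L : Leaf Γ X B}

/-- normal coordinate, same element and same frame -/
def norSame {o o' : Orb L} (n : Nor L o) (hβ : o'.β = o.β) (hx : o'.x = o.x) : Nor L o' where
  N := n.N
  ok := n.ok
  x := n.x
  base := by
    have : o'.pos = o.pos := by unfold Orb.pos; rw [hx]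
    rw [this]; exact n.base
  equiv := fun η hη => by
    have h1 : o'.neg = o.neg := by unfold Orb.neg; rw [hx]
    rw [hβ]; exact n.equiv η (h1 ▸ hη)
  smooth := by
    have h1 : o'.neg = o.neg := by unfold Orb.neg; rw [hx]
    rw [h1]; exact n.smooth
  inv := n.inv
  inv_cont := n.inv_cont
  inv_ne := fun z => by
    have h1 : o'.neg = o.neg := by unfold Orb.neg; rw [hx]
    rw [h1]; exact n.inv_ne z
  inv_right := n.inv_right
  inv_left := fun η hη => by
    have h1 : o'.neg = o.neg := by unfold Orb.neg; rw [hx]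
    exact n.inv_left η (h1 ▸ hη)
  deriv := fun y hy => by
    have h1 : o'.neg = o.neg := by unfold Orb.neg; rw [hx]
    exact n.deriv y (hy.trans h1)

/-- normal coordinate of the square -/
def norSq {o o' : Orb L} (n : Nor L o) {μ₁ μ₂ a : ℝ} {k : ℕ} (hN : n.N = .tri μ₁ μ₂ a k)
    (hβ : o'.β = o.β * o.β) (hx : o'.x = o.x) : Nor L o' :=
  norSame (H503.dblNor n hN) (by rw [hβ, H503.dbl_β]) (by rw [hx, H503.dbl_x])

variable [MeasurableSpace B] [BorelSpace B] {A : Area L} {T : Tens L} {k₀ : ℕ}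

/-- level form, same element and same frame -/
def levSame {o o' : Orb L} (t : LevForm A T k₀ o) (hβ : o'.β = o.β) (hx : o'.x = o.x) :
    LevForm A T k₀ o' where
  n := norSame t.n hβ hx
  i := t.i
  χ := t.χ
  ε := t.ε
  ε_abs := t.ε_abs
  equiv := fun η hη => by
    have h1 : o'.neg = o.neg := by unfold Orb.neg; rw [hx]
    have h2 := t.equiv η (h1 ▸ hη)
    rw [hβ, Orb.l_unique o' o hβ hx]
    exact h2
  b := t.b
  b_cont := t.b_cont
  b_rough := t.b_rough
  b_equiv := by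
    rw [Orb.l_unique o' o hβ hx]
    exact t.b_equiv
  V := t.V
  V_smooth := fun y hy => t.V_smooth y (by
    have h1 : o'.neg = o.neg := by unfold Orb.neg; rw [hx]
    exact hy.trans h1)
  form := fun y hy => t.form y (by
    have h1 : o'.neg = o.neg := by unfold Orb.neg; rw [hx]
    exact hy.trans h1)

/-- level form of the square -/
def levSq {o o' : Orb L} (t : LevForm A T k₀ o) {μ₁ μ₂ a : ℝ} {k : ℕ}
    (hN : t.n.N = .tri μ₁ μ₂ a k) (hβ : o'.β = o.β * o.β) (hx : o'.x = o.x) :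
    LevForm A T k₀ o' where
  n := norSq t.n hN hβ hx
  i := t.i
  χ := t.χ
  ε := t.ε * t.ε
  ε_abs := by rw [abs_mul, t.ε_abs, one_mul]
  equiv := fun η hη => by
    have h1 : o'.neg = o.neg := by unfold Orb.neg; rw [hx]
    have hη' : η ≠ o.neg := h1 ▸ hη
    have hl : o'.l = (H503.dbl o).l := Orb.l_unique o' (H503.dbl o) (by rw [hβ, H503.dbl_β])
      (by rw [hx, H503.dbl_x])
    have hl2 : (H503.dbl o).l = 2 * o.l := by
      show ((2 : ℕ) : ℝ) * o.l = 2 * o.l
      norm_num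
    have h2 : o.β⁻¹ • η ≠ o.neg := H854.inv_smul_ne_neg _ hη'
    have e1 := t.equiv η hη'
    have e2 := t.equiv _ h2
    show t.n.x (o'.β⁻¹ • η) t.i = _
    rw [hβ, mul_inv_rev, mul_smul, e2, e1, hl, hl2]
    have h3 : Real.exp (t.χ * (2 * o.l)) = Real.exp (t.χ * o.l) * Real.exp (t.χ * o.l) := by
      rw [← Real.exp_add]; congr 1; ring
    rw [h3]
    show _ = t.ε * t.ε * (Real.exp (t.χ * o.l) * Real.exp (t.χ * o.l)) * t.n.x η t.i
    ring
  b := t.b
  b_cont := t.b_cont
  b_rough := t.b_rough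
  b_equiv := by
    have hl : o'.l = (H503.dbl o).l := Orb.l_unique o' (H503.dbl o) (by rw [hβ, H503.dbl_β])
      (by rw [hx, H503.dbl_x])
    have hl2 : (H503.dbl o).l = 2 * o.l := by
      show ((2 : ℕ) : ℝ) * o.l = 2 * o.l
      norm_num
    obtain ⟨P, hP⟩ := t.b_equiv
    refine ⟨Polynomial.C (Real.exp ((2 * A.h - 2 * t.χ) * o.l)) * P +
      P.comp (Polynomial.C (t.ε * Real.exp (t.χ * o.l)) * Polynomial.X), fun s => ?_⟩
    have h3 : Real.exp (t.χ * (2 * o.l)) = Real.exp (t.χ * o.l) * Real.exp (t.χ * o.l) := by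
      rw [← Real.exp_add]; congr 1; ring
    have h4 : Real.exp ((2 * A.h - 2 * t.χ) * (2 * o.l)) =
        Real.exp ((2 * A.h - 2 * t.χ) * o.l) * Real.exp ((2 * A.h - 2 * t.χ) * o.l) := by
      rw [← Real.exp_add]; congr 1; ring
    have h5 : t.ε * t.ε * Real.exp (t.χ * o'.l) * s =
        t.ε * Real.exp (t.χ * o.l) * (t.ε * Real.exp (t.χ * o.l) * s) := by
      rw [hl, hl2, h3]; ring
    rw [h5, hP, hP, hl, hl2, h4]
    simp only [Polynomial.eval_add, Polynomial.eval_mul, Polynomial.eval_C, Polynomial.eval_comp,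
      Polynomial.eval_X]
    ring
  V := t.V
  V_smooth := fun y hy => t.V_smooth y (by
    have h1 : o'.neg = o.neg := by unfold Orb.neg; rw [hx]
    exact hy.trans h1)
  form := fun y hy => t.form y (by
    have h1 : o'.neg = o.neg := by unfold Orb.neg; rw [hx]
    exact hy.trans h1)

theorem sqN_split {μ₁ μ₂ a : ℝ} {k : ℕ} (h : (NF.tri μ₁ μ₂ a k).Split) :
    (H503.sqN μ₁ μ₂ a k).Split := by
  have h1 : |μ₂| < |μ₁| := h
  show |μ₂ * μ₂| < |μ₁ * μ₁|
  rw [abs_mul, abs_mul]
  exact mul_self_lt_mul_self (abs_nonneg _) h1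

/-- a level form at the square -/
theorem exists_levSq (hF : ∀ p : Typed A T k₀, p.t.IsF) (hT : Types A T k₀) (o o' : Orb L)
    (hβ : o'.β = o.β * o.β) (hx : o'.x = o.x) :
    ∃ t : LevForm A T k₀ o', t.i = 1 ∧ t.n.N.Split := by
  obtain ⟨p, hp, hpx⟩ := hT o
  obtain ⟨hs, hi, -⟩ := hF p
  rcases hp with h | h
  · obtain ⟨μ₁, μ₂, a, k, hN⟩ := H319.tri_of_split hs
    refine ⟨levSq p.t hN (by rw [hβ, h]) (by rw [hx, hpx]), hi, ?_⟩
    exact sqN_split (hN ▸ hs)
  · exact ⟨levSame p.t (by rw [hβ, h]) (by rw [hx, hpx]), hi, hs⟩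

/-- **level forms on both sides** -/
theorem lev_both (hT : Types A T k₀) (hF : ∀ p : Typed A T k₀, p.t.IsF) (o₀ : Orb L) :
    ∃ (o : Orb L) (t : LevForm A T k₀ o) (t' : LevForm A T k₀ o.flip), o.lam = o₀.lam ∧
      t.i = 1 ∧ t'.i = 1 ∧ t.n.N.Split ∧ t'.n.N.Split := by
  obtain ⟨t, h1, h2⟩ := exists_levSq hF hT o₀ o₀.sqr rfl rfl
  obtain ⟨t', h3, h4⟩ := exists_levSq hF hT o₀.flip o₀.sqr.flip
    (by
      show (o₀.β * o₀.β)⁻¹ = o₀.β⁻¹ * o₀.β⁻¹
      rw [mul_inv_rev]) rfl
  exact ⟨o₀.sqr, t, t', Orb.lam_sqr o₀, h1, h3, h2, h4⟩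

end Vale.Agent.P207.N3.H143
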