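import Vale.Agent.P207.N3.H143.Coef

/-!
# P207, N3, P17 (iii): the heaviest second-order jets cannot be rough on both sides
-/

open Finset Metric

set_option linter.unusedSectionVars false

namespace Vale.Agent.P207.N3.H143

open H254 (Lb wtl wm vm pK TwoId)

/-- the length of a label -/
def lz : Lb → ℕ := Sum.elim H254.len H254.len

/-- a positive weight which agrees with `wtl` on labels of length `≥ 1` -/
noncomputable def wq (κ ℓ D : ℝ) (j : Lb) : ℝ := if 1 ≤ lz j then wtl κ ℓ j else D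

theorem wtl_ge_lz {κ ℓ : ℝ} (hℓ : 0 < ℓ) (hκ : ℓ ≤ κ) {j : Lb} (hj : 1 ≤ lz j) :
    ℓ ≤ wtl κ ℓ j := by
  rcases j with a | a
  · exact H254.wtl_ge hℓ hκ hj
  · exact H254.wtl_ge hℓ hκ hj

theorem wq_pos {κ ℓ D : ℝ} (hℓ : 0 < ℓ) (hκ : ℓ ≤ κ) (hD : 0 < D) (j : Lb) :
    0 < wq κ ℓ D j := by
  unfold wq
  split_ifs with h
  · exact hℓ.trans_le (wtl_ge_lz hℓ hκ h)
  · exact hD

theorem wt_wq {κ ℓ : ℝ} (D : ℝ) {μ : Lb →₀ ℕ} (h : ∀ i ∈ μ.support, 1 ≤ lz i) :
    wt (wq κ ℓ D) μ = wm (wtl κ ℓ) μ := by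
  unfold wt wm Finsupp.sum
  refine Finset.sum_congr rfl fun i hi => ?_
  show (μ i : ℝ) * wq κ ℓ D i = _
  unfold wq
  rw [if_pos (h i hi)]

section

variable {Y X : Type*} {K : ℕ} {κ ℓ h : ℝ} (S : H254.Side K Y) (S' : H254.Side K X)

/-- only labels of length `≥ 1` occur in the product formula -/
theorem pK_vars (h : ℝ) {μ ν : Lb →₀ ℕ} (hc : (pK h S S').coeff (μ.sumElim ν) ≠ 0) :
    (∀ i ∈ μ.support, 1 ≤ lz i) ∧ ∀ j ∈ ν.support, 1 ≤ lz j := by
  classical
  set s : Set (Lb ⊕ Lb) := {z | 1 ≤ Sum.elim lz lz z} with hs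
  set A0 := MvPolynomial.supported ℝ s with hA0
  have hl : ∀ q : MvPolynomial Lb ℝ, (∀ α ∈ q.support, ∀ j ∈ α.support, 1 ≤ lz j) →
      MvPolynomial.rename Sum.inl q ∈ A0 := by
    intro q hq
    rw [hA0, MvPolynomial.mem_supported]
    intro z hz
    have h1 := MvPolynomial.vars_rename _ _ (Finset.mem_coe.mp hz)
    obtain ⟨j, hj, rfl⟩ := Finset.mem_image.mp h1
    obtain ⟨α, hα, hjα⟩ := (MvPolynomial.mem_vars_iff_mem_support j).mp hj
    exact hq α hα j hjα
  have hr : ∀ q : MvPolynomial Lb ℝ, (∀ α ∈ q.support, ∀ j ∈ α.support, 1 ≤ lz j) →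
      MvPolynomial.rename Sum.inr q ∈ A0 := by
    intro q hq
    rw [hA0, MvPolynomial.mem_supported]
    intro z hz
    have h1 := MvPolynomial.vars_rename _ _ (Finset.mem_coe.mp hz)
    obtain ⟨j, hj, rfl⟩ := Finset.mem_image.mp h1
    obtain ⟨α, hα, hjα⟩ := (MvPolynomial.mem_vars_iff_mem_support j).mp hj
    exact hq α hα j hjα
  have vP : ∀ {Z : Type _} (S : H254.Side K Z) (a : ℕ × ℕ), ∀ α ∈ (S.P a).support,
      ∀ j ∈ α.support, 1 ≤ lz j := by
    intro Z S a α hα j hj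
    obtain ⟨b, rfl, h1, -⟩ := S.P_var hα hj
    exact h1
  have vQ : ∀ {Z : Type _} (S : H254.Side K Z) (a : ℕ × ℕ), ∀ α ∈ (S.Q a).support,
      ∀ j ∈ α.support, 1 ≤ lz j := by
    intro Z S a α hα j hj
    obtain ⟨b, rfl | rfl, h1, -⟩ := S.Q_var hα hj
    · exact h1
    · exact h1
  have vP' : ∀ a : ℕ × ℕ, ∀ α ∈ (S'.P a).support, ∀ j ∈ α.support, 1 ≤ lz j := by
    intro a α hα j hj
    obtain ⟨b, rfl, h1, -⟩ := S'.P_var hα hj
    exact h1
  have vQ' : ∀ a : ℕ × ℕ, ∀ α ∈ (S'.Q a).support, ∀ j ∈ α.support, 1 ≤ lz j := by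
    intro a α hα j hj
    obtain ⟨b, rfl | rfl, h1, -⟩ := S'.Q_var hα hj
    · exact h1
    · exact h1
  have hmem : pK h S S' ∈ A0 := by
    have h1 := H254.EK_map A0.val K h
      (fun a => (⟨MvPolynomial.rename Sum.inl (S.P a), hl _ (vP S a)⟩ : A0))
      (fun a => (⟨MvPolynomial.rename Sum.inl (S.Q a), hl _ (vQ S a)⟩ : A0))
      (fun a => (⟨MvPolynomial.rename Sum.inr (S'.P a), hr _ (vP' a)⟩ : A0))
      (fun a => (⟨MvPolynomial.rename Sum.inr (S'.Q a), hr _ (vQ' a)⟩ : A0))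
    have h2 : pK h S S' = A0.val (H254.EK K h
      (fun a => (⟨MvPolynomial.rename Sum.inl (S.P a), hl _ (vP S a)⟩ : A0))
      (fun a => (⟨MvPolynomial.rename Sum.inl (S.Q a), hl _ (vQ S a)⟩ : A0))
      (fun a => (⟨MvPolynomial.rename Sum.inr (S'.P a), hr _ (vP' a)⟩ : A0))
      (fun a => (⟨MvPolynomial.rename Sum.inr (S'.Q a), hr _ (vQ' a)⟩ : A0))) := h1.symm
    rw [h2]
    exact Subtype.coe_prop _
  rw [hA0, MvPolynomial.mem_supported] at hmem
  have hsup := MvPolynomial.mem_support_iff.mpr hc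
  constructor
  · intro i hi
    have h1 : Sum.inl i ∈ (pK h S S').vars := by
      rw [MvPolynomial.mem_vars_iff_mem_support]
      refine ⟨_, hsup, ?_⟩
      rw [Finsupp.mem_support_iff, Finsupp.sumElim_inl]
      exact Finsupp.mem_support_iff.mp hi
    exact hmem h1
  · intro i hi
    have h1 : Sum.inr i ∈ (pK h S S').vars := by
      rw [MvPolynomial.mem_vars_iff_mem_support]
      refine ⟨_, hsup, ?_⟩
      rw [Finsupp.mem_support_iff, Finsupp.sumElim_inr]
      exact Finsupp.mem_support_iff.mp hi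
    exact hmem h1

/-- the monomial `X_{e 0}^{b.1} X_{e 1}^{b.2}` -/
noncomputable def mb (b : ℕ × ℕ) : Lb →₀ ℕ :=
  Finsupp.single (Sum.inl (H254.e 0)) b.1 + Finsupp.single (Sum.inl (H254.e 1)) b.2

theorem mb_eq (b : ℕ × ℕ) : (MvPolynomial.X (Sum.inl (H254.e 0)) ^ b.1 *
    MvPolynomial.X (Sum.inl (H254.e 1)) ^ b.2 : MvPolynomial Lb ℝ) =
    MvPolynomial.monomial (mb b) 1 := by
  rw [MvPolynomial.X_pow_eq_monomial, MvPolynomial.X_pow_eq_monomial,
    MvPolynomial.monomial_mul, mul_one]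
  rfl

theorem e_ne : (Sum.inl (H254.e 0) : Lb) ≠ Sum.inl (H254.e 1) := by
  rw [H254.e_zero, H254.e_one]
  intro h
  have := Sum.inl_injective h
  simp at this

theorem mb_wt (b : ℕ × ℕ) : wm (wtl κ ℓ) (mb b) = κ * b.1 + ℓ * b.2 := by
  have h2 : wm (wtl κ ℓ) (mb b) = (mb b).sum fun j n => (n : ℝ) * wtl κ ℓ j := rfl
  rw [h2]
  unfold mb
  rw [Finsupp.sum_add_index' (by intro; simp) (by intro _ _ _; push_cast; ring),
    Finsupp.sum_single_index (by simp), Finsupp.sum_single_index (by simp),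
    H254.wtl_inl, H254.wtl_inl, H254.e_zero, H254.e_one]
  push_cast
  ring

theorem mb_mval {v : Lb → X → ℝ} (b : ℕ × ℕ) (x : X) :
    mval v (mb b) x = v (Sum.inl (H254.e 0)) x ^ b.1 * v (Sum.inl (H254.e 1)) x ^ b.2 := by
  unfold mval mb
  rw [Finsupp.prod_add_index' (by intro; simp) (by intro _ _ _; rw [pow_add]),
    Finsupp.prod_single_index (by simp), Finsupp.prod_single_index (by simp)]
  rfl

theorem mb_supp (b : ℕ × ℕ) : ∀ j ∈ (mb b).support, 1 ≤ lz j := by
  intro j hj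
  have h1 := Finsupp.support_add hj
  rw [Finset.mem_union] at h1
  rcases h1 with h1 | h1
  · have h2 := Finsupp.support_single_subset h1
    rw [Finset.mem_singleton] at h2
    rw [h2, H254.e_zero]
    exact le_rfl
  · have h2 := Finsupp.support_single_subset h1
    rw [Finset.mem_singleton] at h2
    rw [h2, H254.e_one]
    exact le_rfl

theorem GX_coeff (a : Lb) (ν : Lb →₀ ℕ) :
    (GX S a).coeff ν = ∑ b ∈ H254.tri K, if mb b = ν then
      H254.fac b * (S.Q b).coeff (Finsupp.single a 1) else 0 := by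
  classical
  unfold GX
  rw [MvPolynomial.coeff_sum]
  refine Finset.sum_congr rfl fun b _ => ?_
  rw [mb_eq, MvPolynomial.coeff_smul, MvPolynomial.coeff_monomial]
  split_ifs <;> simp

open Classical in
/-- the `y`-monomials of weight `w` -/
noncomputable def MM (κ ℓ h : ℝ) (S : H254.Side K Y) (S' : H254.Side K X) (w : ℝ) :
    Finset (Lb →₀ ℕ) :=
  ((pK h S S').support.image (fun α => Finsupp.comapDomain Sum.inl α Sum.inl_injective.injOn) ∪
    (H254.tri K).image fun b => Finsupp.single (Sum.inr b) 1).filter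
      fun μ => wm (wtl κ ℓ) μ = w ∧ ∀ i ∈ μ.support, 1 ≤ lz i

open Classical in
/-- the `x`-monomials of weight `w` -/
noncomputable def NN (κ ℓ h : ℝ) (S : H254.Side K Y) (S' : H254.Side K X) (w : ℝ) :
    Finset (Lb →₀ ℕ) :=
  ((pK h S S').support.image (fun α => Finsupp.comapDomain Sum.inr α Sum.inr_injective.injOn) ∪
    (H254.tri K).image mb).filter
      fun μ => wm (wtl κ ℓ) μ = w ∧ ∀ i ∈ μ.support, 1 ≤ lz i

theorem MM_wm {w : ℝ} {μ : Lb →₀ ℕ} (hμ : μ ∈ MM κ ℓ h S S' w) : wm (wtl κ ℓ) μ = w :=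
  (Finset.mem_filter.mp hμ).2.1

theorem NN_wm {w : ℝ} {μ : Lb →₀ ℕ} (hμ : μ ∈ NN κ ℓ h S S' w) : wm (wtl κ ℓ) μ = w :=
  (Finset.mem_filter.mp hμ).2.1

theorem MM_wt (D : ℝ) {w : ℝ} {μ : Lb →₀ ℕ} (hμ : μ ∈ MM κ ℓ h S S' w) :
    wt (wq κ ℓ D) μ = w := by
  rw [wt_wq D (Finset.mem_filter.mp hμ).2.2]
  exact (Finset.mem_filter.mp hμ).2.1

theorem NN_wt (D : ℝ) {w : ℝ} {μ : Lb →₀ ℕ} (hμ : μ ∈ NN κ ℓ h S S' w) :
    wt (wq κ ℓ D) μ = w := by
  rw [wt_wq D (Finset.mem_filter.mp hμ).2.2]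
  exact (Finset.mem_filter.mp hμ).2.1

theorem MMNN_sub {w w' : ℝ} {μ ν : Lb →₀ ℕ} (hc : (pK h S S').coeff (μ.sumElim ν) ≠ 0)
    (hw : wm (wtl κ ℓ) μ = w) (hw' : wm (wtl κ ℓ) ν = w') :
    μ ∈ MM κ ℓ h S S' w ∧ ν ∈ NN κ ℓ h S S' w' := by
  classical
  have hsup := MvPolynomial.mem_support_iff.mpr hc
  obtain ⟨h1, h2⟩ := pK_vars S S' h hc
  constructor
  · unfold MM
    rw [Finset.mem_filter, Finset.mem_union]
    refine ⟨Or.inl (Finset.mem_image.mpr ⟨_, hsup, ?_⟩), hw, h1⟩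
    exact Finsupp.comapDomain_inl_sumElim _ _
  · unfold NN
    rw [Finset.mem_filter, Finset.mem_union]
    refine ⟨Or.inl (Finset.mem_image.mpr ⟨_, hsup, ?_⟩), hw', h2⟩
    exact Finsupp.comapDomain_inr_sumElim _ _

theorem two_id {W : ℝ} (hid : TwoId κ ℓ h W S S') {w w' : ℝ} (hw : w + w' < W) (y : Y) (x : X) :
    ∑ μ ∈ MM κ ℓ h S S' w, ∑ ν ∈ NN κ ℓ h S S' w',
      (pK h S S').coeff (μ.sumElim ν) * mval S.v μ y * mval S'.v ν x = 0 := by
  rw [two_split (pK h S S') (wtl κ ℓ) (wtl κ ℓ) S.v S'.v w w' _ _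
    (fun μ hμ => MM_wm S S' hμ) (fun ν hν => NN_wm S S' hν)
    (fun μ ν hc h1 h2 => MMNN_sub S S' hc h1 h2)]
  exact hid w w' hw y x


theorem MM_single_inr {b : ℕ × ℕ} (hb : b ∈ H254.tri K) (hb1 : 1 ≤ H254.len b) :
    Finsupp.single (Sum.inr b) 1 ∈ MM κ ℓ h S S' (κ * b.1 + ℓ * b.2) := by
  classical
  unfold MM
  rw [Finset.mem_filter, Finset.mem_union]
  refine ⟨Or.inr (Finset.mem_image.mpr ⟨b, hb, rfl⟩), ?_, ?_⟩
  · rw [H254.wm_single, H254.wtl_inr]
  · intro i hi
    have h2 := Finsupp.support_single_subset hi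
    rw [Finset.mem_singleton] at h2
    rw [h2]
    exact hb1

theorem NN_mb {b : ℕ × ℕ} (hb : b ∈ H254.tri K) :
    mb b ∈ NN κ ℓ h S S' (κ * b.1 + ℓ * b.2) := by
  classical
  unfold NN
  rw [Finset.mem_filter, Finset.mem_union]
  exact ⟨Or.inr (Finset.mem_image.mpr ⟨b, hb, rfl⟩), mb_wt b, mb_supp b⟩

theorem MM_single_lz {w : ℝ} {i : Lb} (hi : Finsupp.single i 1 ∈ MM κ ℓ h S S' w) :
    1 ≤ lz i ∧ wtl κ ℓ i = w := by
  have h1 := (Finset.mem_filter.mp hi).2
  refine ⟨h1.2 i ?_, ?_⟩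
  · rw [Finsupp.mem_support_iff, Finsupp.single_eq_same]
    exact one_ne_zero
  · rw [← h1.1, H254.wm_single]

/-- the coefficient function of `X_a` in the identity of bi-weight `(w, w')` -/
theorem sum_NN (hK : 1 ≤ K) {w' : ℝ} (a : ℕ × ℕ) (x : X) :
    ∑ ν ∈ NN κ ℓ h S S' w', (pK h S S').coeff ((Finsupp.single (Sum.inr a) 1).sumElim ν) *
      mval S'.v ν x = ∑ b ∈ (H254.tri K).filter (fun b => κ * b.1 + ℓ * b.2 = w'),
        H254.fac b * (S.Q b).coeff (Finsupp.single (Sum.inr a) 1) *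
          (S'.v (Sum.inl (H254.e 0)) x ^ b.1 * S'.v (Sum.inl (H254.e 1)) x ^ b.2) := by
  classical
  have h1 : ∀ ν ∈ NN κ ℓ h S S' w',
      (pK h S S').coeff ((Finsupp.single (Sum.inr a) 1).sumElim ν) * mval S'.v ν x =
      ∑ b ∈ H254.tri K, if mb b = ν then H254.fac b *
        (S.Q b).coeff (Finsupp.single (Sum.inr a) 1) * mval S'.v (mb b) x else 0 := by
    intro ν _
    rw [pK_one S S' hK h a ν, GX_coeff, Finset.sum_mul]
    refine Finset.sum_congr rfl fun b _ => ?_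
    by_cases h2 : mb b = ν
    · rw [if_pos h2, if_pos h2, h2]
    · rw [if_neg h2, if_neg h2, zero_mul]
  rw [Finset.sum_congr rfl h1, Finset.sum_comm, Finset.sum_filter]
  refine Finset.sum_congr rfl fun b hb => ?_
  rw [Finset.sum_ite_eq]
  by_cases h2 : κ * b.1 + ℓ * b.2 = w'
  · rw [if_pos h2, if_pos (h2 ▸ NN_mb S S' hb), mb_mval]
  · rw [if_neg h2, if_neg]
    intro h3
    have := NN_wm S S' h3
    rw [mb_wt] at this
    exact h2 this

theorem wq_lz {D : ℝ} {j : Lb} (hj : 1 ≤ lz j) : wq κ ℓ D j = wtl κ ℓ j := if_pos hj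

/-- **X-jets.** If the `T`-jets of weight `< w1` are regular, so are the `X`-jets. -/
theorem xjets_side {W : ℝ} (hℓ : 0 < ℓ) (hκ : ℓ < κ) (hid : TwoId κ ℓ h W S S') {w1 : ℝ}
    (hw1 : 2 * w1 ≤ W) (hK : 1 ≤ K) (hK1 : w1 ≤ (K + 1) * ℓ) {U : Subalgebra ℝ (Y → ℝ)}
    (hT : ∀ a, 1 ≤ H254.len a → κ * a.1 + ℓ * a.2 < w1 → S.v (Sum.inl a) ∈ U)
    {cx : X → EuclideanSpace ℝ (Fin 2)} (hcx : ∀ i x, S'.v (Sum.inl (H254.e i)) x = cx x i)
    {δ : ℝ} (hδ : 0 < δ) (hball : ball 0 δ ⊆ Set.range cx) :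
    ∀ a, 1 ≤ H254.len a → κ * a.1 + ℓ * a.2 < w1 → S.v (Sum.inr a) ∈ U := by
  classical
  set R : ℕ × ℕ → ℕ × ℕ → Prop := fun b a => κ * b.1 + ℓ * b.2 < κ * a.1 + ℓ * a.2 ∨
    (κ * b.1 + ℓ * b.2 = κ * a.1 + ℓ * a.2 ∧ H254.len b < H254.len a) with hR
  have hRtrans : ∀ a b c, R a b → R b c → R a c := by
    rintro a b c (h1 | ⟨h1, h1'⟩) (h2 | ⟨h2, h2'⟩)
    · exact Or.inl (h1.trans h2)
    · exact Or.inl (h2 ▸ h1)
    · exact Or.inl (h1 ▸ h2)
    · exact Or.inr ⟨h1.trans h2, h1'.trans h2'⟩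
  have hRirr : ∀ a, ¬ R a a := by
    rintro a (h1 | ⟨_, h1⟩)
    · exact lt_irrefl _ h1
    · exact lt_irrefl _ h1
  have htri : ∀ a : ℕ × ℕ, κ * a.1 + ℓ * a.2 < w1 → a ∈ H254.tri K := by
    intro a ha
    rw [H254.mem_tri]
    have h1 := H254.len_le_wtl hκ.le a
    have h2 : (H254.len a : ℝ) * ℓ < (K + 1) * ℓ := by linarith
    have h3 : (H254.len a : ℝ) < K + 1 := lt_of_mul_lt_mul_right h2 hℓ.le
    have h4 : H254.len a < K + 1 := by exact_mod_cast h3
    unfold H254.len at h4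
    omega
  have key : ∀ m : ℕ, ∀ a : ℕ × ℕ, 1 ≤ H254.len a → κ * a.1 + ℓ * a.2 < w1 →
      ((H254.tri K).filter fun b => R b a).card = m → S.v (Sum.inr a) ∈ U := by
    intro m
    induction m using Nat.strong_induction_on with
    | _ m ih =>
      intro a ha1 haw hm
      have hlowR : ∀ b : ℕ × ℕ, 1 ≤ H254.len b → R b a → S.v (Sum.inr b) ∈ U := by
        intro b hb hba
        have hbw : κ * b.1 + ℓ * b.2 < w1 := by
          rcases hba with h1 | ⟨h1, -⟩
          · exact h1.trans haw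
          · rw [h1]; exact haw
        refine ih ((H254.tri K).filter fun c => R c b).card ?_ b hb hbw rfl
        rw [← hm]
        refine Finset.card_lt_card ?_
        rw [Finset.ssubset_iff_of_subset]
        · exact ⟨b, by simp [htri b hbw, hba], by simp [hRirr b]⟩
        · intro c hc
          rw [Finset.mem_filter] at hc ⊢
          exact ⟨hc.1, hRtrans _ _ _ hc.2 hba⟩
      set w := κ * a.1 + ℓ * a.2 with hw
      have hwp : 0 < w := hℓ.trans_le (H254.wtl_ge hℓ hκ.le ha1)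
      -- low labels
      have hlow : ∀ i, wq κ ℓ w i < w → S.v i ∈ U := by
        intro i hi
        by_cases hlz : 1 ≤ lz i
        · rw [wq_lz hlz] at hi
          rcases i with b | b
          · exact hT b hlz (hi.trans haw)
          · exact hlowR b hlz (Or.inl hi)
        · unfold wq at hi
          rw [if_neg hlz] at hi
          exact absurd hi (lt_irrefl _)
      set I : Finset Lb := ((MM κ ℓ h S S' w).biUnion fun μ => μ.support).filter
        fun i => Finsupp.single i 1 ∈ MM κ ℓ h S S' w with hI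
      have hImem : ∀ i, Finsupp.single i 1 ∈ MM κ ℓ h S S' w ↔ i ∈ I := by
        intro i
        rw [hI, Finset.mem_filter, Finset.mem_biUnion]
        constructor
        · intro h
          exact ⟨⟨_, h, by simp⟩, h⟩
        · intro h; exact h.2
      -- the coefficient polynomials
      set q : ℕ × ℕ → ℕ × ℕ → ℝ := fun b c => (S.Q b).coeff (Finsupp.single (Sum.inr c) 1) with hq
      set IX : Finset (ℕ × ℕ) := (H254.tri K).filter fun c => Sum.inr c ∈ I with hIX
      have hinrI : ∀ c : ℕ × ℕ, Sum.inr c ∈ I → c ∈ IX := by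
        intro c hc
        obtain ⟨-, h2⟩ := MM_single_lz S S' ((hImem _).mpr hc)
        rw [hIX, Finset.mem_filter]
        refine ⟨htri c ?_, hc⟩
        have h3 : κ * c.1 + ℓ * c.2 = w := h2
        rw [h3]
        exact haw
      have h1 : ∀ z ∈ ball (0 : EuclideanSpace ℝ (Fin 2)) δ,
          (fun y => ∑ b ∈ H254.tri K with κ * b.1 + ℓ * b.2 = w,
            (∑ c ∈ IX, q b c * S.v (Sum.inr c) y) * mon b z) ∈ U.toSubmodule := by
        intro z hz
        obtain ⟨x, rfl⟩ := hball hz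
        have h2 := heavy_y (wq_pos hℓ hκ.le hwp) (MM κ ℓ h S S' w) (NN κ ℓ h S S' w)
          (fun μ hμ => MM_wt S S' w hμ) (fun μ ν => (pK h S S').coeff (μ.sumElim ν)) S'.v
          (two_id S S' hid (by linarith)) hlow I hImem x
        set C : Lb → ℝ := fun i => ∑ ν ∈ NN κ ℓ h S S' w,
          (pK h S S').coeff ((Finsupp.single i 1).sumElim ν) * mval S'.v ν x with hC
        have h3 : (fun y => ∑ i ∈ I, C i * S.v i y) =
            (∑ i ∈ I with i.isLeft, C i • S.v i) +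
              fun y => ∑ c ∈ IX, C (Sum.inr c) * S.v (Sum.inr c) y := by
          funext y
          rw [Pi.add_apply, ← Finset.sum_filter_add_sum_filter_not I (fun i => i.isLeft = true)]
          congr 1
          · simp [Finset.sum_apply]
          · refine (Finset.sum_bij' (i := fun b _ => Sum.inr b)
              (j := fun i _ => Sum.elim id id i) ?_ ?_ ?_ ?_ ?_).symm
            · intro b hb
              rw [hIX, Finset.mem_filter] at hb
              rw [Finset.mem_filter]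
              exact ⟨hb.2, by simp⟩
            · rintro (i | i) hi
              · simp at hi
              · rw [Finset.mem_filter] at hi
                exact hinrI i hi.1
            · intro b _; rfl
            · rintro (i | i) hi
              · simp at hi
              · rfl
            · intro b hb
              rfl
        have h4 : (∑ i ∈ I with i.isLeft, C i • S.v i) ∈ U := by
          refine U.sum_mem fun i hi => U.smul_mem ?_ _
          rw [Finset.mem_filter] at hi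
          rcases i with i | i
          · obtain ⟨h5, h6⟩ := MM_single_lz S S' ((hImem _).mpr hi.1)
            refine hT i h5 ?_
            have h7 : κ * i.1 + ℓ * i.2 = w := h6
            rw [h7]
            exact haw
          · simp at hi
        have h5 : (fun y => ∑ c ∈ IX, C (Sum.inr c) * S.v (Sum.inr c) y) =
            fun y => ∑ b ∈ H254.tri K with κ * b.1 + ℓ * b.2 = w,
              (∑ c ∈ IX, q b c * S.v (Sum.inr c) y) * mon b (cx x) := by
          funext y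
          have h6 : ∀ c ∈ IX, C (Sum.inr c) * S.v (Sum.inr c) y =
              ∑ b ∈ H254.tri K with κ * b.1 + ℓ * b.2 = w,
                q b c * S.v (Sum.inr c) y * mon b (cx x) := by
            intro c _
            simp only [hC]
            rw [sum_NN S S' hK c x, Finset.sum_mul]
            refine Finset.sum_congr rfl fun b _ => ?_
            rw [hcx, hcx]
            unfold mon H254.fac
            rw [div_eq_mul_inv]
            ring
          rw [Finset.sum_congr rfl h6, Finset.sum_comm]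
          exact Finset.sum_congr rfl fun b _ => by rw [Finset.sum_mul]
        rw [← h5]
        have h2' : (fun y => ∑ i ∈ I, C i * S.v i y) ∈ U := h2
        rw [h3] at h2'
        exact (U.toSubmodule.add_mem_iff_right h4).mp h2'
      have h2 := poly_rule2 U.toSubmodule ((H254.tri K).filter fun b => κ * b.1 + ℓ * b.2 = w) hδ
        (fun b y => ∑ c ∈ IX, q b c * S.v (Sum.inr c) y) h1 a (by simp [htri a haw, hw])
      have haIX : a ∈ IX := by
        rw [hIX, Finset.mem_filter]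
        exact ⟨htri a haw, (hImem _).mp (MM_single_inr S S' (htri a haw) ha1)⟩
      have haK : H254.len a ≤ K := by
        have := H254.mem_tri.mp (htri a haw)
        unfold H254.len
        exact this
      have h3 : (fun y => ∑ c ∈ IX, q a c * S.v (Sum.inr c) y) =
          S.v (Sum.inr a) + ∑ c ∈ IX.erase a, q a c • S.v (Sum.inr c) := by
        funext y
        rw [← Finset.add_sum_erase _ _ haIX, Pi.add_apply, Finset.sum_apply]
        have h4 : q a a = 1 := S.Q_one a ha1 haK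
        rw [h4, one_mul]
        rfl
      have h4 : ∑ c ∈ IX.erase a, q a c • S.v (Sum.inr c) ∈ U := by
        refine U.sum_mem fun c hc => ?_
        rw [Finset.mem_erase, hIX, Finset.mem_filter] at hc
        by_cases h5 : q a c = 0
        · rw [h5, zero_smul]
          exact U.zero_mem
        · refine U.smul_mem ?_ _
          obtain ⟨h6, h7⟩ := MM_single_lz S S' ((hImem _).mpr hc.2.2)
          have h8 : κ * c.1 + ℓ * c.2 = w := h7
          refine hlowR c h6 (Or.inr ⟨h8, ?_⟩)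
          rcases S.Q_supp a _ (MvPolynomial.mem_support_iff.2 h5) with h9 | h9
          · have h10 := (Finsupp.single_left_injective one_ne_zero) h9
            exact absurd (Sum.inr_injective h10) hc.1
          · rcases h9.2 (Sum.inr c) (by simp) with ⟨b, h10, -⟩ | ⟨b, h10, -, h11⟩
            · cases h10
            · rw [Sum.inr_injective h10]
              exact h11
      rw [h3] at h2
      exact (U.toSubmodule.add_mem_iff_left h4).mp h2
  intro a ha1 haw
  exact key _ a ha1 haw rfl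


theorem P_single {a : ℕ × ℕ} {i : Lb} (h : (S.P a).coeff (Finsupp.single i 1) ≠ 0) :
    i = Sum.inl a := by
  rcases S.P_supp a _ (MvPolynomial.mem_support_iff.2 h) with h1 | h1
  · exact (Finsupp.single_left_injective one_ne_zero) h1
  · have h2 := h1.1
    rw [Finsupp.degree_single] at h2
    omega

/-- the only bilinear coefficient of bi-weight `(2 κ, 2 κ)` -/
theorem bil_eq (hℓ : 0 < ℓ) (hκ : ℓ < κ) {i j : Lb} (hi : wtl κ ℓ i = 2 * κ)
    (hj : wtl κ ℓ j = 2 * κ) :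
    bil S S' h i j = (S.P (2, 0)).coeff (Finsupp.single i 1) *
      (S'.P (2, 0)).coeff (Finsupp.single j 1) := by
  have w10 : κ * ((1, 0) : ℕ × ℕ).1 + ℓ * ((1, 0) : ℕ × ℕ).2 ≠ 2 * κ := by
    push_cast
    intro h
    nlinarith
  have w01 : κ * ((0, 1) : ℕ × ℕ).1 + ℓ * ((0, 1) : ℕ × ℕ).2 ≠ 2 * κ := by
    push_cast
    intro h
    nlinarith
  have w11 : κ * ((1, 1) : ℕ × ℕ).1 + ℓ * ((1, 1) : ℕ × ℕ).2 ≠ 2 * κ := by
    push_cast
    intro h
    nlinarith
  have w02 : κ * ((0, 2) : ℕ × ℕ).1 + ℓ * ((0, 2) : ℕ × ℕ).2 ≠ 2 * κ := by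
    push_cast
    intro h
    nlinarith
  have p10 : (S.P (1, 0)).coeff (Finsupp.single i 1) = 0 := by
    by_contra hne
    rw [P_single S hne, H254.wtl_inl] at hi
    exact w10 hi
  have p01 : (S.P (0, 1)).coeff (Finsupp.single i 1) = 0 := by
    by_contra hne
    rw [P_single S hne, H254.wtl_inl] at hi
    exact w01 hi
  have p11 : (S.P (1, 1)).coeff (Finsupp.single i 1) = 0 := by
    by_contra hne
    rw [P_single S hne, H254.wtl_inl] at hi
    exact w11 hi
  have p02 : (S.P (0, 2)).coeff (Finsupp.single i 1) = 0 := by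
    by_contra hne
    rw [P_single S hne, H254.wtl_inl] at hi
    exact w02 hi
  have p10' : (S'.P (1, 0)).coeff (Finsupp.single j 1) = 0 := by
    by_contra hne
    rw [P_single S' hne, H254.wtl_inl] at hj
    exact w10 hj
  have p01' : (S'.P (0, 1)).coeff (Finsupp.single j 1) = 0 := by
    by_contra hne
    rw [P_single S' hne, H254.wtl_inl] at hj
    exact w01 hj
  unfold bil
  rw [p10, p01, p11, p02, p10', p01']
  ring

/-- **4.6 (iii).** All `T`-jets of weight `< 2 κ` regular on both sides: then the corrected jet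
`T_{(2,0)}` is regular on one of the two sides. -/
theorem loop_two {W : ℝ} (hℓ : 0 < ℓ) (hκ : ℓ < κ) (hid : TwoId κ ℓ h W S S')
    (hid' : TwoId κ ℓ h W S' S) (hW : 4 * κ < W) (hK : 2 ≤ K) (hK1 : 2 * κ ≤ (K + 1) * ℓ)
    {U : Subalgebra ℝ (Y → ℝ)} {V : Subalgebra ℝ (X → ℝ)}
    (hT : ∀ a, 1 ≤ H254.len a → κ * a.1 + ℓ * a.2 < 2 * κ → S.v (Sum.inl a) ∈ U)
    (hT' : ∀ a, 1 ≤ H254.len a → κ * a.1 + ℓ * a.2 < 2 * κ → S'.v (Sum.inl a) ∈ V)
    {cy : Y → EuclideanSpace ℝ (Fin 2)} (hcy : ∀ i y, S.v (Sum.inl (H254.e i)) y = cy y i)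
    {cx : X → EuclideanSpace ℝ (Fin 2)} (hcx : ∀ i x, S'.v (Sum.inl (H254.e i)) x = cx x i)
    {δ : ℝ} (hδ : 0 < δ) (hbally : ball 0 δ ⊆ Set.range cy) (hballx : ball 0 δ ⊆ Set.range cx) :
    S.v (Sum.inl (2, 0)) ∈ U ∨ S'.v (Sum.inl (2, 0)) ∈ V := by
  have hX := xjets_side S S' hℓ hκ hid (w1 := 2 * κ) (by linarith) (by omega) hK1 hT hcx hδ hballx
  have hX' := xjets_side S' S hℓ hκ hid' (w1 := 2 * κ) (by linarith) (by omega) hK1 hT' hcy hδ
    hbally
  have hκ0 : 0 < κ := hℓ.trans hκ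
  have hD : 0 < 2 * κ := by linarith
  have hlow : ∀ i, wq κ ℓ (2 * κ) i < 2 * κ → S.v i ∈ U := by
    intro i hi
    by_cases hlz : 1 ≤ lz i
    · rw [wq_lz hlz] at hi
      rcases i with b | b
      · exact hT b hlz hi
      · exact hX b hlz hi
    · unfold wq at hi
      rw [if_neg hlz] at hi
      exact absurd hi (lt_irrefl _)
  have hlow' : ∀ i, wq κ ℓ (2 * κ) i < 2 * κ → S'.v i ∈ V := by
    intro i hi
    by_cases hlz : 1 ≤ lz i
    · rw [wq_lz hlz] at hi
      rcases i with b | b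
      · exact hT' b hlz hi
      · exact hX' b hlz hi
    · unfold wq at hi
      rw [if_neg hlz] at hi
      exact absurd hi (lt_irrefl _)
  have hw20 : wtl κ ℓ (Sum.inl (2, 0)) = 2 * κ := by
    rw [H254.wtl_inl]
    push_cast
    ring
  have hc1 : (pK h S S').coeff ((Finsupp.single (Sum.inl (2, 0)) 1).sumElim
      (Finsupp.single (Sum.inl (2, 0)) 1)) = 1 := by
    rw [pK_two S S' hK, bil_eq S S' hℓ hκ hw20 hw20, S.P_one (2, 0) (by decide) hK,
      S'.P_one (2, 0) (by decide) hK, one_mul]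
  have hne : (pK h S S').coeff ((Finsupp.single (Sum.inl (2, 0)) 1).sumElim
      (Finsupp.single (Sum.inl (2, 0)) 1)) ≠ 0 := by
    rw [hc1]; exact one_ne_zero
  obtain ⟨m1, m2⟩ := MMNN_sub S S' hne (w := 2 * κ) (w' := 2 * κ)
    (by rw [H254.wm_single, hw20]) (by rw [H254.wm_single, hw20])
  refine loop_biweight (wq_pos hℓ hκ.le hD) (wq_pos hℓ hκ.le hD) (W := 2 * κ)
    (MM κ ℓ h S S' (2 * κ)) (NN κ ℓ h S S' (2 * κ)) (fun μ hμ => MM_wt S S' _ hμ)
    (fun ν hν => NN_wt S S' _ hν) (fun μ ν => (pK h S S').coeff (μ.sumElim ν))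
    (two_id S S' hid (by linarith)) hlow hlow' (Sum.inl (2, 0)) (Sum.inl (2, 0)) m1 m2 hne ?_
  intro i j hi hj hij
  obtain ⟨-, h1⟩ := MM_single_lz S S' hi
  have h2 : wtl κ ℓ j = 2 * κ := by
    rw [← NN_wm S S' hj, H254.wm_single]
  rw [pK_two S S' hK, bil_eq S S' hℓ hκ h1 h2] at hij
  exact ⟨P_single S (left_ne_zero_of_mul hij), P_single S' (right_ne_zero_of_mul hij)⟩

end

end Vale.Agent.P207.N3.H143
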