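import Vale.Agent.P207.N3.H143.Side
import Vale.Agent.P207.N3.H143.HalfL
import Vale.Agent.P207.N3.H646.TauB

/-!
# P207, N3, Case 2 (4.6 ii): the relation along the leaf of a homoclinic point

`o` = closed orbit of type F, `k • ζ = o.neg`, `ζ` near `o.neg`, `f = t.f ∘ k`. In the coordinate
`p = Q ζ` of the leaf `U_ζ` near `o.pos`: `N (ξ p) = h p` with smooth `ξ = ∇ f`, `h`, where
`(1 - M M') N = M`, `M` = Hessian of the leaf `y` of `H'`, `M'` = Hessian of the leaf of `ζ`.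
-/

open Set Filter Topology Metric InnerProductSpace
open scoped ContDiff RealInnerProductSpace Gradient

noncomputable section

namespace Vale.Agent.P207.N3.H143

set_option linter.unusedSectionVars false

/-- local inverse of a smooth germ of the plane -/
theorem exists_localInv {P : E2 → E2} (hP : ContDiffAt ℝ ∞ P 0) (h0 : P 0 = 0)
    (hdet : (fderiv ℝ P 0).det ≠ 0) :
    ∃ R : E2 → E2, ContDiffAt ℝ ∞ R 0 ∧ R 0 = 0 ∧ (∀ᶠ u in 𝓝 0, R (P u) = u) ∧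
      ∀ᶠ p in 𝓝 0, P (R p) = p := by
  set e₀ : E2 ≃L[ℝ] E2 := (fderiv ℝ P 0).toContinuousLinearEquivOfDetNeZero hdet with he₀
  have he : (e₀ : E2 →L[ℝ] E2) = fderiv ℝ P 0 := by rw [he₀]; simp
  have hd : HasFDerivAt P (e₀ : E2 →L[ℝ] E2) 0 := by
    rw [he]
    exact (hP.differentiableAt (by simp)).hasFDerivAt
  have hne : (∞ : WithTop ℕ∞) ≠ 0 := by simp
  have hst := hP.hasStrictFDerivAt' hd hne
  refine ⟨hP.localInverse hd hne, ?_, ?_, ?_, ?_⟩
  · have := hP.to_localInverse hd hne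
    rwa [h0] at this
  · have := hP.localInverse_apply_image hd hne
    rwa [h0] at this
  · exact hst.eventually_left_inverse
  · have := hst.eventually_right_inverse
    rwa [h0] at this

theorem contDiff_adjoint : ContDiff ℝ ∞ (fun A : E2 →L[ℝ] E2 => ContinuousLinearMap.adjoint A) := by
  let F : (E2 →L[ℝ] E2) →L[ℝ] (E2 →L[ℝ] E2) :=
    LinearMap.toContinuousLinearMap
      { toFun := fun A : E2 →L[ℝ] E2 => ContinuousLinearMap.adjoint A
        map_add' := fun A B => by simp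
        map_smul' := fun r A => by simp }
  exact F.contDiff

theorem inner_J_self (v : E2) : ⟪J v, v⟫ = 0 := by
  rw [PiLp.inner_apply, Fin.sum_univ_two]
  simp [J]
  ring

variable {Γ X B : Type} [Group Γ] [MetricSpace X] [ProperSpace X] [MulAction Γ X]
  [IsIsometricSMul Γ X] [TopologicalSpace B] [CompactSpace B] [T2Space B] [MulAction Γ B]
  [ContinuousConstSMul Γ B] [MeasurableSpace B] [BorelSpace B]

variable {L : Leaf Γ X B} {A : Area L} {T : Tens L} {k₀ : ℕ} {o : Orb L}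

/-- the translated level function in a disc -/
def FF (t : LevForm A T k₀ o) (k : Γ) (f₁ : X) (u : E2) : ℝ := t.f (k • L.e f₁ u)

theorem FF_eq (t : LevForm A T k₀ o) (k : Γ) (f₁ : X) {u : E2} (hu : u ∈ ball (0 : E2) 3) :
    FF t k f₁ u = t.n.x (L.e (k • f₁) u) t.i := by
  rw [L.e_smul k f₁ u (ball_subset_closedBall hu)]
  rfl

theorem FF_smooth (t : LevForm A T k₀ o) {k : Γ} {f₁ : X} (hf : L.em (k • f₁) = o.neg) :
    ContDiffOn ℝ ∞ (FF t k f₁) (ball 0 3) := by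
  have h1 := t.n.smooth (k • f₁) hf
  have h2 : ContDiffOn ℝ ∞ (fun u => t.n.x (L.e (k • f₁) u) t.i) (ball 0 3) :=
    (EuclideanSpace.proj (𝕜 := ℝ) t.i : E2 →L[ℝ] ℝ).contDiff.comp_contDiffOn h1
  exact h2.congr fun u hu => FF_eq t k f₁ hu

theorem N_grad (t : LevForm A T k₀ o) {k : Γ} {f₁ : X} (hf : L.em (k • f₁) = o.neg) {u : E2}
    (hu : u ∈ ball (0 : E2) 3) :
    T.N f₁ u (∇ (FF t k f₁) u) = t.V (k • f₁) u (∇ (FF t k f₁) u) := by
  have h1 : ∇ (FF t k f₁) u = ∇ (fun u => t.n.x (L.e (k • f₁) u) t.i) u := by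
    have : FF t k f₁ =ᶠ[𝓝 u] fun u => t.n.x (L.e (k • f₁) u) t.i := by
      filter_upwards [isOpen_ball.mem_nhds hu] with w hw using FF_eq t k f₁ hw
    exact Filter.EventuallyEq.gradient_eq this
  have h2 := t.form (k • f₁) hf u hu (∇ (FF t k f₁) u)
  rw [T.N_smul k f₁ u hu] at h2
  have h3 : inner ℝ (perp A (k • f₁) (fun η => t.n.x η t.i) u) (∇ (FF t k f₁) u) = (0 : ℝ) := by
    unfold perp
    rw [inner_smul_left, h1, inner_J_self, mul_zero]
  rw [h2, h3, mul_zero, zero_smul, add_zero]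

/-- the coordinate `p` of the leaf of `ζ` in the disc of `f₁` -/
def PP {g : Γ} {neg pos : B} {x y : B → E2} {H H' : Half} (S : Side T g neg pos x y H H')
    (ζ : B) (f₁ : X) (u : E2) : E2 := S.Q ζ (L.e f₁ u)

/-- **The relation.** -/
theorem relLeaf (t : LevForm A T k₀ o) {g : Γ} {x y : B → E2} {H H' : Half}
    (S : Side T g o.neg o.pos x y H H') (hx0 : x o.pos = 0) (hy0 : y o.neg = 0)
    (hyc : ContinuousAt y o.neg) {xinv : E2 → B} (hxc : ContinuousAt xinv 0)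
    (hxi0 : xinv 0 = o.pos) (hxi : ∀ᶠ q in 𝓝 0, x (xinv q) = q) :
    ∀ᶠ ζ in 𝓝 o.neg, ∀ k : Γ, k • ζ = o.neg → ∀ f₁ : X, L.em f₁ = ζ → L.ep f₁ = o.pos →
      y ζ ∈ ball (0 : E2) H.r ∧ y ζ ∈ ball (0 : E2) H'.r ∧
      ContDiffAt ℝ ∞ (PP S ζ f₁) 0 ∧ PP S ζ f₁ 0 = 0 ∧ (fderiv ℝ (PP S ζ f₁) 0).det ≠ 0 ∧
      (∃ π : E2 → E2, Tendsto π (𝓝 0) (𝓝 0) ∧
        ∀ᶠ q in 𝓝 (0 : E2), π q = ∇ (H'.S q) (∇ (H.S (y ζ)) (π q))) ∧
      ∃ ξ h : E2 → E2, ContDiffAt ℝ ∞ ξ 0 ∧ ContDiffAt ℝ ∞ h 0 ∧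
        ContinuousLinearMap.adjoint (fderiv ℝ (PP S ζ f₁) 0) (ξ 0) = ∇ (FF t k f₁) 0 ∧
        ∀ᶠ z : E2 × E2 in 𝓝 0, z.2 = ∇ (H'.S z.1) (∇ (H.S (y ζ)) z.2) → ∃ N : E2 →L[ℝ] E2,
          ((1 : E2 →L[ℝ] E2) - fderiv ℝ (∇ (H'.S z.1)) (∇ (H.S (y ζ)) z.2) ∘L
            fderiv ℝ (∇ (H.S (y ζ))) z.2) ∘L N
              = fderiv ℝ (∇ (H'.S z.1)) (∇ (H.S (y ζ)) z.2) ∧ N (ξ z.2) = h z.2 := by
  have hps := S.pt
  have hsm := S.smooth
  have hlk := S.link
  rw [nhds_prod_eq, Filter.eventually_prod_iff] at hps hsm hlk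
  obtain ⟨pa, hpa, pb, hpb, hpt⟩ := hps
  obtain ⟨sa, hsa, sb, hsb, hsm⟩ := hsm
  obtain ⟨la, hla, lb, hlb, hlk⟩ := hlk
  have hyb : ∀ᶠ ζ in 𝓝 o.neg, y ζ ∈ ball (0 : E2) H.r ∧ y ζ ∈ ball (0 : E2) H'.r := by
    have h1 := hyc.tendsto
    rw [hy0] at h1
    exact (h1.eventually (isOpen_ball.mem_nhds (mem_ball_self H.r_pos))).and
      (h1.eventually (isOpen_ball.mem_nhds (mem_ball_self H'.r_pos)))
  -- `∇ (H.S (y ζ)) (Q ζ pos)` is small
  have hsmall : ∀ᶠ ζ in 𝓝 o.neg, ∇ (H.S (y ζ)) (S.Q ζ o.pos) ∈ ball (0 : E2) H'.r := by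
    have h1 : ContinuousAt (fun ζ => (y ζ, S.Q ζ o.pos)) o.neg := by
      refine hyc.prodMk ?_
      exact ContinuousAt.comp (f := fun ζ : B => (ζ, o.pos)) (g := fun z : B × B => S.Q z.1 z.2)
        S.cont (by fun_prop)
    have h2 := h1.tendsto
    simp only [hy0, S.zero] at h2
    have h3 := h2.eventually (grad_small H (mem_ball_self H.r_pos) H'.r_pos)
    filter_upwards [h3] with ζ h4
    simpa using h4
  filter_upwards [hpa, hsa, hla, hyb, hsmall] with ζ hζp hζs hζl hζy hζsm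
  intro k hk f₁ hf₁ hf₁'
  have hpos3 : (0 : E2) ∈ ball (0 : E2) 3 := mem_ball_self (by norm_num)
  have hef : L.e f₁ 0 = o.pos := by rw [L.e_zero, hf₁']
  have hkf : L.em (k • f₁) = o.neg := by rw [L.em_smul, hf₁, hk]
  -- the coordinate
  obtain ⟨hPs, hPd, hKs⟩ := hsm hζs hsb.self_of_nhds f₁ hf₁ 0 hpos3 hef
  have hP0 : PP S ζ f₁ 0 = 0 := by
    have h1 := hpt hζp hpb.self_of_nhds
    simp only [hx0] at h1
    unfold PP
    rw [hef, h1]
    exact grad_zero H' hζsm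
  refine ⟨hζy.1, hζy.2, hPs, hP0, hPd, ?_⟩
  have hη : Tendsto xinv (𝓝 0) (𝓝 o.pos) := by
    have := hxc.tendsto
    rwa [hxi0] at this
  have hinv := L.inv_tendsto (ι := E2) (l := 𝓝 0) (x := fun _ => f₁) (b := xinv) (x₀ := f₁)
    (u₀ := 0) tendsto_const_nhds (by rw [hef]; exact hη) hpos3
  have hπex : ∃ π : E2 → E2, Tendsto π (𝓝 0) (𝓝 0) ∧
        ∀ᶠ q in 𝓝 (0 : E2), π q = ∇ (H'.S q) (∇ (H.S (y ζ)) (π q)) := by
    refine ⟨fun q => S.Q ζ (xinv q), ?_, ?_⟩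
    · have h1 : Tendsto (PP S ζ f₁) (𝓝 0) (𝓝 0) := by
        have h2 : ContDiffAt ℝ ∞ (PP S ζ f₁) 0 := hPs
        have := h2.continuousAt.tendsto
        rwa [hP0] at this
      refine (h1.comp hinv.2).congr' ?_
      filter_upwards [hinv.1] with q hq
      obtain ⟨u, hu3, huη⟩ := hq
      simp only [Function.comp_apply, PP]
      rw [← huη, L.inv_e (ball_subset_closedBall hu3)]
    · filter_upwards [hxi, hη.eventually hpb] with q g1 g3
      have := hpt hζp g3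
      simp only at this
      rwa [g1] at this
  refine ⟨hπex, ?_⟩
  set P : E2 → E2 := PP S ζ f₁ with hPdef
  have hPs' : ContDiffAt ℝ ∞ P 0 := hPs
  obtain ⟨R, hR, hR0, hRP, hPR⟩ := exists_localInv (P := P) hPs hP0 hPd
  set F := FF t k f₁ with hF
  have hFs : ContDiffAt ℝ ∞ F 0 := (FF_smooth t hkf).contDiffAt (isOpen_ball.mem_nhds hpos3)
  have hGF : ContDiffAt ℝ ∞ (∇ F) 0 := contDiffAt_gradient hFs
  have hV : ContDiffAt ℝ ∞ (t.V (k • f₁)) 0 :=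
    (t.V_smooth (k • f₁) hkf).contDiffAt (isOpen_ball.mem_nhds hpos3)
  have hDR : ContDiffAt ℝ ∞ (fderiv ℝ R) 0 := hR.fderiv_right (m := ∞) (by norm_cast)
  have hDP : ContDiffAt ℝ ∞ (fderiv ℝ P) 0 := hPs.fderiv_right (m := ∞) (by norm_cast)
  have hcomp : ∀ {V : Type} [NormedAddCommGroup V] [NormedSpace ℝ V] {G : E2 → V},
      ContDiffAt ℝ ∞ G 0 → ContDiffAt ℝ ∞ (fun p => G (R p)) 0 := by
    intro V _ _ G hG
    have hG' : ContDiffAt ℝ ∞ G (R 0) := by rw [hR0]; exact hG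
    exact hG'.comp 0 hR
  set ξ : E2 → E2 := fun p => ContinuousLinearMap.adjoint (fderiv ℝ R p) (∇ F (R p)) with hξ
  set h : E2 → E2 := fun p => S.K f₁ (R p) (ξ p) -
    S.c • fderiv ℝ P (R p) (t.V (k • f₁) (R p) (∇ F (R p))) with hh
  have hξs : ContDiffAt ℝ ∞ ξ 0 :=
    (contDiff_adjoint.contDiffAt.comp 0 hDR).clm_apply (hcomp hGF)
  have hhs : ContDiffAt ℝ ∞ h 0 := by
    refine ((hcomp hKs).clm_apply hξs).sub (ContDiffAt.const_smul _ ?_)
    exact (hcomp hDP).clm_apply ((hcomp hV).clm_apply (hcomp hGF))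
  -- `DR DP = id` near `0`
  have hRPd : ∀ᶠ u in 𝓝 (0 : E2), fderiv ℝ R (P u) ∘L fderiv ℝ P u =
      ContinuousLinearMap.id ℝ E2 := by
    have h1 : ∀ᶠ u in 𝓝 (0 : E2), DifferentiableAt ℝ P u :=
      ((hPs.of_le (m := 1) (by simp)).eventually (by simp)).mono fun u hu =>
        hu.differentiableAt (by simp)
    have h2 : ∀ᶠ p in 𝓝 (0 : E2), DifferentiableAt ℝ R p :=
      ((hR.of_le (m := 1) (by simp)).eventually (by simp)).mono fun u hu =>
        hu.differentiableAt (by simp)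
    have h3 : Tendsto P (𝓝 0) (𝓝 0) := by
      have := hPs'.continuousAt.tendsto
      rwa [hP0] at this
    filter_upwards [h1, h3.eventually h2, hRP.eventually_nhds] with u g1 g2 g3
    have g4 : HasFDerivAt (fun u => R (P u)) (fderiv ℝ R (P u) ∘L fderiv ℝ P u) u :=
      g2.hasFDerivAt.comp u g1.hasFDerivAt
    have g5 : HasFDerivAt (fun u => R (P u)) (ContinuousLinearMap.id ℝ E2) u :=
      (hasFDerivAt_id u).congr_of_eventuallyEq g3
    exact g4.unique g5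
  have hadj : ∀ᶠ u in 𝓝 (0 : E2), ContinuousLinearMap.adjoint (fderiv ℝ P u) (ξ (P u)) =
      ∇ F u := by
    filter_upwards [hRPd, hRP] with u g1 g2
    simp only [hξ]
    rw [g2, ← ContinuousLinearMap.comp_apply, ← ContinuousLinearMap.adjoint_comp, g1]
    have : ContinuousLinearMap.adjoint (ContinuousLinearMap.id ℝ E2)
        = ContinuousLinearMap.id ℝ E2 := by
      symm
      rw [ContinuousLinearMap.eq_adjoint_iff]
      intro a b
      simp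
    rw [this]
    rfl
  refine ⟨ξ, h, hξs, hhs, ?_, ?_⟩
  · have := hadj.self_of_nhds
    rwa [hP0] at this
  -- the relation
  have huniq := inter_unique H H' hζy.1 hζy.2
  -- the point `η = xinv y₁`, `u = inv f₁ η`
  have hu : Tendsto (fun q : E2 => L.inv f₁ (xinv q)) (𝓝 0) (𝓝 0) := hinv.2
  have hPu : Tendsto (fun q : E2 => P (L.inv f₁ (xinv q))) (𝓝 0) (𝓝 0) := by
    have h1 := hPs'.continuousAt.tendsto
    rw [hP0] at h1
    exact h1.comp hu
  have hfst : Tendsto (fun z : E2 × E2 => z.1) (𝓝 0) (𝓝 0) := by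
    have := (continuous_fst (X := E2) (Y := E2)).tendsto 0
    simpa using this
  have hsnd : Tendsto (fun z : E2 × E2 => z.2) (𝓝 0) (𝓝 0) := by
    have := (continuous_snd (X := E2) (Y := E2)).tendsto 0
    simpa using this
  have hq : ∀ᶠ q in 𝓝 (0 : E2), x (xinv q) = q ∧ xinv q ∈ L.e f₁ '' ball 0 3 ∧
      pb (xinv q) ∧ sb (xinv q) ∧ lb (xinv q) ∧
      (ContinuousLinearMap.adjoint (fderiv ℝ P (L.inv f₁ (xinv q)))
        (ξ (P (L.inv f₁ (xinv q)))) = ∇ F (L.inv f₁ (xinv q))) ∧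
      R (P (L.inv f₁ (xinv q))) = L.inv f₁ (xinv q) := by
    filter_upwards [hxi, hinv.1, hη.eventually hpb, hη.eventually hsb, hη.eventually hlb,
      hu.eventually hadj, hu.eventually hRP] with q g1 g2 g3 g4 g5 g6 g7
    exact ⟨g1, g2, g3, g4, g5, g6, g7⟩
  have hun : ∀ᶠ z : E2 × E2 in 𝓝 0, z.2 = ∇ (H'.S z.1) (∇ (H.S (y ζ)) z.2) →
      P (L.inv f₁ (xinv z.1)) = ∇ (H'.S z.1) (∇ (H.S (y ζ)) (P (L.inv f₁ (xinv z.1)))) →
      z.2 = P (L.inv f₁ (xinv z.1)) := by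
    have h1 : Tendsto (fun z : E2 × E2 => (z.1, (z.2, P (L.inv f₁ (xinv z.1))))) (𝓝 0)
        (𝓝 ((0 : E2), ((0 : E2), (0 : E2)))) :=
      hfst.prodMk_nhds (hsnd.prodMk_nhds (hPu.comp hfst))
    exact h1.eventually huniq
  filter_upwards [hfst.eventually hq, hun] with z hz hzu hzp
  obtain ⟨g1, ⟨u, hu3, huη⟩, g3, g4, g5, g6, g7⟩ := hz
  have hiu : L.inv f₁ (xinv z.1) = u := by
    rw [← huη, L.inv_e (ball_subset_closedBall hu3)]
  rw [hiu] at g6 g7 hzu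
  have hPu' : P u = S.Q ζ (xinv z.1) := by
    simp only [hPdef, PP, huη]
  have hpt' := hpt hζp g3
  simp only at hpt'
  rw [g1] at hpt'
  rw [hPu'] at hzu
  have hzP : z.2 = S.Q ζ (xinv z.1) := hzu hzp hpt'
  have hlk' := hlk hζl g5 f₁ hf₁ u hu3 huη
  simp only at hlk'
  rw [g1, ← hzP] at hlk'
  have hPz : P u = z.2 := by rw [hPu', hzP]
  refine ⟨_, hlk', ?_⟩
  rw [hPz] at g6 g7
  have hN := N_grad t hkf hu3
  simp only [hh]
  rw [g7]
  have e1 : (fun u => S.Q ζ (L.e f₁ u)) = P := rfl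
  rw [e1]
  simp only [sub_apply, smul_apply, ContinuousLinearMap.comp_apply]
  rw [g6, hN]

end Vale.Agent.P207.N3.H143
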