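import Vale.Agent.P207.N3.H391.PF
import Vale.Agent.P207.N3.Top.Orb

/-!
# P207, N3, Case 2: the link between the product formula and the leaves, one side

`Side T g neg pos x y H H'`: `x` labels the points `η` near `pos` (normal coordinate of `U_neg`),
`y` labels the points `ξ` near `neg` (normal coordinate of `U_pos`), `Q ξ η` is the `q`-coordinate
of the geodesic `(ξ, η)`, whose `p`-coordinate is `∇ (H.S (y ξ)) (Q ξ η)`. The element `g` acts by
the map `(H.a, H.b)` of the half `H`. The other side is `Side T g⁻¹ pos neg y x H' H`.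
-/

open Set Filter Topology Metric InnerProductSpace
open scoped ContDiff RealInnerProductSpace Gradient

noncomputable section

namespace Vale.Agent.P207.N3.H143

variable {Γ X B : Type} [Group Γ] [MetricSpace X] [ProperSpace X] [MulAction Γ X]
  [IsIsometricSMul Γ X] [TopologicalSpace B] [CompactSpace B] [T2Space B] [MulAction Γ B]
  [ContinuousConstSMul Γ B]

/-- One side of the link. -/
structure Side {L : Leaf Γ X B} (T : Tens L) (g : Γ) (neg pos : B) (x y : B → E2)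
    (H H' : Half) where
  c : ℝ
  c_ne : c ≠ 0
  /-- the `q`-coordinate of the geodesic `(ξ, η)` -/
  Q : B → B → E2
  K : X → E2 → E2 →L[ℝ] E2
  cont : ContinuousAt (fun z : B × B => Q z.1 z.2) (neg, pos)
  zero : Q neg pos = 0
  pt : ∀ᶠ z : B × B in 𝓝 (neg, pos),
    Q z.1 z.2 = ∇ (H'.S (x z.2)) (∇ (H.S (y z.1)) (Q z.1 z.2))
  dyn : ∀ᶠ z : B × B in 𝓝 (neg, pos),
    Q (g • z.1) (g • z.2) = H.a (Q z.1 z.2, ∇ (H.S (y z.1)) (Q z.1 z.2))
  smooth : ∀ᶠ z : B × B in 𝓝 (neg, pos), ∀ f : X, L.em f = z.1 → ∀ u ∈ ball (0 : E2) 3,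
    L.e f u = z.2 → ContDiffAt ℝ ∞ (fun u => Q z.1 (L.e f u)) u ∧
      (fderiv ℝ (fun u => Q z.1 (L.e f u)) u).det ≠ 0 ∧ ContDiffAt ℝ ∞ (K f) u
  link : ∀ᶠ z : B × B in 𝓝 (neg, pos), ∀ f : X, L.em f = z.1 → ∀ u ∈ ball (0 : E2) 3,
    L.e f u = z.2 →
      ((1 : E2 →L[ℝ] E2) - fderiv ℝ (∇ (H'.S (x z.2))) (∇ (H.S (y z.1)) (Q z.1 z.2)) ∘L
          fderiv ℝ (∇ (H.S (y z.1))) (Q z.1 z.2)) ∘L
        (K f u - c • (fderiv ℝ (fun u => Q z.1 (L.e f u)) u ∘L T.N f u ∘L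
          ContinuousLinearMap.adjoint (fderiv ℝ (fun u => Q z.1 (L.e f u)) u)))
      = fderiv ℝ (∇ (H'.S (x z.2))) (∇ (H.S (y z.1)) (Q z.1 z.2))
  dcont : ∀ f₀ : X, L.em f₀ = neg → L.ep f₀ = pos →
    ContinuousAt (fun f : X => fderiv ℝ (fun u => Q (L.em f) (L.e f u)) 0) f₀

end Vale.Agent.P207.N3.H143
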