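import Mathlib

/-!
# Symbols of exponential expansions (P207, line N3, package P17)

A sequence `u n y` has symbol `P` at weight `W` modulo a subalgebra `U` of functions of `y`, if
`u = c + (finite sum of e^{-w n} n^j u(y), w > 0, u in U) + e^{-W n} P(n, y) + o(e^{-W n})`.
Symbols behave like derivations; they are unique modulo `U`.
-/

open Filter Topology Asymptotics

namespace Vale.Agent.P207.N3.H143

noncomputable section

variable {Y : Type*}

/-- the exponential `e^{-w n}` -/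
def ex (w : ℝ) : ℕ → ℝ := fun n => Real.exp (-w * n)

theorem ex_pos (w : ℝ) (n : ℕ) : 0 < ex w n := Real.exp_pos _

theorem ex_mul (w w' : ℝ) (n : ℕ) : ex w n * ex w' n = ex (w + w') n := by
  unfold ex; rw [← Real.exp_add]; congr 1; ring

theorem ex_zero (n : ℕ) : ex 0 n = 1 := by simp [ex]

theorem ex_pow (w : ℝ) (k n : ℕ) : ex w n ^ k = ex (k * w) n := by
  unfold ex; rw [← Real.exp_nat_mul]; congr 1; ring

theorem ex_isBigO {w w' : ℝ} (h : w ≤ w') : (ex w') =O[atTop] (ex w) := by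
  refine IsBigO.of_bound 1 (Eventually.of_forall fun n => ?_)
  rw [Real.norm_of_nonneg (ex_pos _ _).le, Real.norm_of_nonneg (ex_pos _ _).le, one_mul]
  unfold ex
  apply Real.exp_le_exp.mpr
  have : (0:ℝ) ≤ n := Nat.cast_nonneg n
  nlinarith

theorem pow_isLittleO_ex (j : ℕ) {d : ℝ} (hd : 0 < d) :
    (fun n : ℕ => (n : ℝ) ^ j) =o[atTop] (ex (-d)) := by
  have h := (isLittleO_pow_exp_pos_mul_atTop (k := j) hd).comp_tendsto
    (tendsto_natCast_atTop_atTop (R := ℝ))
  refine h.congr (fun n => rfl) (fun n => ?_)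
  simp [ex, Function.comp]

theorem ex_isLittleO {w w' : ℝ} (h : w < w') : (ex w') =o[atTop] (ex w) := by
  have h1 := pow_isLittleO_ex 0 (sub_pos.mpr h)
  have h2 := h1.mul_isBigO (isBigO_refl (ex w') atTop)
  refine h2.congr (fun n => by simp) (fun n => ?_)
  rw [ex_mul]; congr 1; ring

theorem pow_ex_isLittleO (j : ℕ) {w w' : ℝ} (h : w < w') :
    (fun n : ℕ => (n : ℝ) ^ j * ex w' n) =o[atTop] (ex w) := by
  have h1 := pow_isLittleO_ex j (sub_pos.mpr h)
  have h2 := h1.mul_isBigO (isBigO_refl (ex w') atTop)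
  refine h2.congr (fun n => rfl) (fun n => ?_)
  rw [ex_mul]; congr 1; ring

/-- basic term -/
def tm (w : ℝ) (j : ℕ) (u : Y → ℝ) : ℕ → Y → ℝ := fun n y => ex w n * (n : ℝ) ^ j * u y

/-- regular sequences: finite sums of `e^{-w n} n^j u(y)`, `w > 0`, `u ∈ U` -/
def Reg (U : Subalgebra ℝ (Y → ℝ)) : Submodule ℝ (ℕ → Y → ℝ) :=
  Submodule.span ℝ {v | ∃ (w : ℝ) (j : ℕ) (u : Y → ℝ), 0 < w ∧ u ∈ U ∧ v = tm w j u}

variable {U : Subalgebra ℝ (Y → ℝ)}

theorem tm_mem {w : ℝ} (hw : 0 < w) (j : ℕ) {u : Y → ℝ} (hu : u ∈ U) : tm w j u ∈ Reg U :=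
  Submodule.subset_span ⟨w, j, u, hw, hu, rfl⟩

theorem reg_mul {v v' : ℕ → Y → ℝ} (h : v ∈ Reg U) (h' : v' ∈ Reg U) : v * v' ∈ Reg U := by
  unfold Reg at h
  induction h using Submodule.span_induction with
  | mem v hv =>
    obtain ⟨w, j, u, hw, hu, rfl⟩ := hv
    unfold Reg at h'
    induction h' using Submodule.span_induction with
    | mem v' hv' =>
      obtain ⟨w', j', u', hw', hu', rfl⟩ := hv'
      have : tm w j u * tm w' j' u' = tm (w + w') (j + j') (u * u') := by
        funext n y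
        simp only [Pi.mul_apply, tm, ← ex_mul, pow_add]
        ring
      rw [this]
      exact tm_mem (add_pos hw hw') _ (U.mul_mem hu hu')
    | zero => simp
    | add a b _ _ ha hb => rw [mul_add]; exact Submodule.add_mem _ ha hb
    | smul c a _ ha => rw [mul_smul_comm]; exact Submodule.smul_mem _ _ ha
  | zero => simp
  | add a b _ _ ha hb => rw [add_mul]; exact Submodule.add_mem _ ha hb
  | smul c a _ ha => rw [smul_mul_assoc]; exact Submodule.smul_mem _ _ ha

theorem tm_decay {w : ℝ} (hw : 0 < w) (j : ℕ) (u : Y → ℝ) (y : Y) :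
    (fun n => tm w j u n y) =O[atTop] (ex (w / 2)) := by
  have h := (pow_ex_isLittleO j (show w / 2 < w by linarith)).isBigO
  have h2 := h.mul (isBigO_refl (fun _ : ℕ => u y) atTop)
  refine (h2.trans ?_).congr_left (fun n => ?_)
  · refine IsBigO.of_bound |u y| (Eventually.of_forall fun n => ?_)
    rw [norm_mul, Real.norm_eq_abs (u y), mul_comm]
  · simp only [tm]; ring

theorem reg_decay {v : ℕ → Y → ℝ} (h : v ∈ Reg U) :
    ∃ δ : ℝ, 0 < δ ∧ ∀ y, (fun n => v n y) =O[atTop] (ex δ) := by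
  unfold Reg at h
  induction h using Submodule.span_induction with
  | mem v hv =>
    obtain ⟨w, j, u, hw, hu, rfl⟩ := hv
    exact ⟨w / 2, by linarith, fun y => tm_decay hw j u y⟩
  | zero => exact ⟨1, one_pos, fun y => by simpa using isBigO_zero (ex 1) atTop⟩
  | add a b _ _ ha hb =>
    obtain ⟨δ, hδ, h1⟩ := ha
    obtain ⟨δ', hδ', h2⟩ := hb
    refine ⟨min δ δ', lt_min hδ hδ', fun y => ?_⟩
    exact ((h1 y).trans (ex_isBigO (min_le_left _ _))).add
      ((h2 y).trans (ex_isBigO (min_le_right _ _)))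
  | smul c a _ ha =>
    obtain ⟨δ, hδ, h1⟩ := ha
    exact ⟨δ, hδ, fun y => (h1 y).const_mul_left c⟩

/-- evaluation of a polynomial in `n` with coefficients functions of `y` -/
def ev (P : Polynomial (Y → ℝ)) (n : ℕ) (y : Y) : ℝ := (P.eval (n : Y → ℝ)) y

theorem ev_add (P Q : Polynomial (Y → ℝ)) (n : ℕ) (y : Y) : ev (P + Q) n y = ev P n y + ev Q n y := by
  simp [ev]

theorem ev_sub (P Q : Polynomial (Y → ℝ)) (n : ℕ) (y : Y) : ev (P - Q) n y = ev P n y - ev Q n y := by
  simp [ev]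

theorem ev_zero (n : ℕ) (y : Y) : ev (0 : Polynomial (Y → ℝ)) n y = 0 := by
  simp [ev]

theorem ev_smul (c : ℝ) (P : Polynomial (Y → ℝ)) (n : ℕ) (y : Y) : ev (c • P) n y = c * ev P n y := by
  unfold ev
  rw [Polynomial.eval_smul]
  rfl

theorem ev_eq_sum (P : Polynomial (Y → ℝ)) (n : ℕ) (y : Y) :
    ev P n y = ∑ j ∈ Finset.range (P.natDegree + 1), (n : ℝ) ^ j * P.coeff j y := by
  unfold ev
  rw [Polynomial.eval_eq_sum_range, Finset.sum_apply]
  refine Finset.sum_congr rfl fun j _ => ?_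
  simp [mul_comm]

theorem ev_growth (P : Polynomial (Y → ℝ)) (y : Y) {d : ℝ} (hd : 0 < d) :
    (fun n => ev P n y) =O[atTop] (ex (-d)) := by
  have : (fun n => ev P n y) =
      fun n : ℕ => ∑ j ∈ Finset.range (P.natDegree + 1), (n : ℝ) ^ j * P.coeff j y := by
    funext n; exact ev_eq_sum P n y
  rw [this]
  refine IsBigO.fun_sum fun j _ => ?_
  have h := (pow_isLittleO_ex j hd).isBigO.mul (isBigO_refl (fun _ : ℕ => P.coeff j y) atTop)
  refine h.trans ?_
  refine IsBigO.of_bound |P.coeff j y| (Eventually.of_forall fun n => ?_)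
  rw [norm_mul, Real.norm_eq_abs (P.coeff j y), mul_comm]

/-- `u` has constant term `c` and symbol `P` at weight `W`, modulo regular sequences -/
def HasSym (U : Subalgebra ℝ (Y → ℝ)) (W : ℝ) (u : ℕ → Y → ℝ) (c : ℝ)
    (P : Polynomial (Y → ℝ)) : Prop :=
  ∃ v ∈ Reg U, ∀ y, (fun n : ℕ => u n y - c - v n y - ex W n * ev P n y) =o[atTop] (ex W)

variable {W : ℝ}

theorem HasSym.congr {u u' : ℕ → Y → ℝ} {c : ℝ} {P : Polynomial (Y → ℝ)}
    (h : HasSym U W u c P) (h' : ∀ y, (fun n => u' n y - u n y) =o[atTop] (ex W)) :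
    HasSym U W u' c P := by
  obtain ⟨v, hv, H⟩ := h
  refine ⟨v, hv, fun y => ((H y).add (h' y)).congr_left fun n => ?_⟩
  ring

theorem hasSym_const (c : ℝ) : HasSym U W (fun _ _ => c) c 0 :=
  ⟨0, Submodule.zero_mem _, fun y => by simp [ev_zero]⟩

theorem hasSym_reg {v : ℕ → Y → ℝ} (hv : v ∈ Reg U) : HasSym U W v 0 0 :=
  ⟨v, hv, fun y => by simp [ev_zero]⟩

theorem hasSym_top (P : Polynomial (Y → ℝ)) : HasSym U W (fun n y => ex W n * ev P n y) 0 P :=
  ⟨0, Submodule.zero_mem _, fun y => by simp⟩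

theorem HasSym.add {u u' : ℕ → Y → ℝ} {c c' : ℝ} {P P' : Polynomial (Y → ℝ)}
    (h : HasSym U W u c P) (h' : HasSym U W u' c' P') :
    HasSym U W (fun n y => u n y + u' n y) (c + c') (P + P') := by
  obtain ⟨v, hv, H⟩ := h
  obtain ⟨v', hv', H'⟩ := h'
  refine ⟨v + v', Submodule.add_mem _ hv hv', fun y => ((H y).add (H' y)).congr_left fun n => ?_⟩
  simp only [Pi.add_apply, ev_add]
  ring

theorem HasSym.smul {u : ℕ → Y → ℝ} {c : ℝ} {P : Polynomial (Y → ℝ)} (a : ℝ)
    (h : HasSym U W u c P) : HasSym U W (fun n y => a * u n y) (a * c) (a • P) := by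
  obtain ⟨v, hv, H⟩ := h
  refine ⟨a • v, Submodule.smul_mem _ _ hv, fun y => ((H y).const_mul_left a).congr_left fun n => ?_⟩
  simp only [Pi.smul_apply, smul_eq_mul, ev_smul]
  ring

theorem HasSym.neg {u : ℕ → Y → ℝ} {c : ℝ} {P : Polynomial (Y → ℝ)}
    (h : HasSym U W u c P) : HasSym U W (fun n y => - u n y) (-c) (-P) := by
  have := h.smul (-1)
  simpa using this

theorem HasSym.sub {u u' : ℕ → Y → ℝ} {c c' : ℝ} {P P' : Polynomial (Y → ℝ)}
    (h : HasSym U W u c P) (h' : HasSym U W u' c' P') :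
    HasSym U W (fun n y => u n y - u' n y) (c - c') (P - P') := by
  have := h.add h'.neg
  simpa [sub_eq_add_neg] using this

theorem HasSym.sum {ι : Type*} (s : Finset ι) {u : ι → ℕ → Y → ℝ} {c : ι → ℝ}
    {P : ι → Polynomial (Y → ℝ)} (h : ∀ i ∈ s, HasSym U W (u i) (c i) (P i)) :
    HasSym U W (fun n y => ∑ i ∈ s, u i n y) (∑ i ∈ s, c i) (∑ i ∈ s, P i) := by
  classical
  induction s using Finset.induction_on with
  | empty => simpa using hasSym_const (U := U) (W := W) (0 : ℝ)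
  | insert a s ha ih =>
    have h1 := (h a (Finset.mem_insert_self _ _)).add
      (ih fun i hi => h i (Finset.mem_insert_of_mem hi))
    simpa [Finset.sum_insert ha] using h1

/-- decay of the part of positive weight -/
theorem HasSym.decay (hW : 0 < W) {u : ℕ → Y → ℝ} {c : ℝ} {P : Polynomial (Y → ℝ)}
    (h : HasSym U W u c P) : ∃ δ : ℝ, 0 < δ ∧ ∀ y, (fun n => u n y - c) =O[atTop] (ex δ) := by
  obtain ⟨v, hv, H⟩ := h
  obtain ⟨δ, hδ, hd⟩ := reg_decay hv
  refine ⟨min δ (W / 2), lt_min hδ (by linarith), fun y => ?_⟩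
  have h1 : (fun n : ℕ => u n y - c - v n y - ex W n * ev P n y) =O[atTop] (ex (min δ (W / 2))) :=
    (H y).isBigO.trans (ex_isBigO ((min_le_right _ _).trans (by linarith)))
  have h2 : (fun n : ℕ => ex W n * ev P n y) =O[atTop] (ex (min δ (W / 2))) := by
    have h3 := (isBigO_refl (ex W) atTop).mul (ev_growth P y (show (0:ℝ) < W / 2 by linarith))
    refine (h3.congr_right (fun n => ?_)).trans (ex_isBigO (w := min δ (W/2)) (w' := W / 2)
      (min_le_right _ _))
    rw [ex_mul]; congr 1; ring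
  have h4 := (hd y).trans (ex_isBigO (min_le_left δ (W / 2)))
  refine ((h1.add h2).add h4).congr_left fun n => ?_
  ring

theorem ex_tendsto {δ : ℝ} (hδ : 0 < δ) : Tendsto (ex δ) atTop (𝓝 0) := by
  have h := ex_isLittleO hδ
  have h2 : (ex 0) = fun _ => (1:ℝ) := by funext n; exact ex_zero n
  rw [h2] at h
  exact (isLittleO_one_iff ℝ).mp h

theorem HasSym.tendsto (hW : 0 < W) {u : ℕ → Y → ℝ} {c : ℝ} {P : Polynomial (Y → ℝ)}
    (h : HasSym U W u c P) (y : Y) : Tendsto (fun n => u n y) atTop (𝓝 c) := by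
  obtain ⟨δ, hδ, hd⟩ := h.decay hW
  have h1 := (hd y).trans_tendsto (ex_tendsto hδ)
  have h2 := h1.add_const c
  simpa using h2

theorem HasSym.mul (hW : 0 < W) {u u' : ℕ → Y → ℝ} {c c' : ℝ} {P P' : Polynomial (Y → ℝ)}
    (h : HasSym U W u c P) (h' : HasSym U W u' c' P') :
    HasSym U W (fun n y => u n y * u' n y) (c * c') (c • P' + c' • P) := by
  have hu' := h'.tendsto hW
  obtain ⟨v, hv, H⟩ := h
  obtain ⟨v', hv', H'⟩ := h'
  obtain ⟨δ, hδ, hd⟩ := reg_decay hv
  obtain ⟨δ', hδ', hd'⟩ := reg_decay hv'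
  refine ⟨c • v' + c' • v + v * v', Submodule.add_mem _ (Submodule.add_mem _
    (Submodule.smul_mem _ _ hv') (Submodule.smul_mem _ _ hv)) (reg_mul hv hv'), fun y => ?_⟩
  -- r u' : error of the first factor
  have e1 : (fun n : ℕ => (u n y - c - v n y - ex W n * ev P n y) * u' n y) =o[atTop] (ex W) := by
    have := (H y).mul_isBigO ((hu' y).isBigO_one ℝ)
    simpa using this
  have e2 : (fun n : ℕ => (c + v n y + ex W n * ev P n y) *
      (u' n y - c' - v' n y - ex W n * ev P' n y)) =o[atTop] (ex W) := by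
    have hb : (fun n : ℕ => c + v n y + ex W n * ev P n y) =O[atTop] (fun _ => (1:ℝ)) := by
      have a1 : (fun _ : ℕ => c) =O[atTop] (fun _ => (1:ℝ)) := isBigO_const_const _ one_ne_zero _
      have a2 : (fun n : ℕ => v n y) =O[atTop] (fun _ => (1:ℝ)) :=
        (hd y).trans (((ex_tendsto hδ).isBigO_one ℝ))
      have a3 : (fun n : ℕ => ex W n * ev P n y) =O[atTop] (fun _ => (1:ℝ)) := by
        have h3 := (isBigO_refl (ex W) atTop).mul (ev_growth P y (show (0:ℝ) < W / 2 by linarith))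
        have h4 : (fun n => ex W n * ex (-(W/2)) n) = ex (W/2) := by
          funext n; rw [ex_mul]; congr 1; ring
        rw [h4] at h3
        exact h3.trans ((ex_tendsto (by linarith)).isBigO_one ℝ)
      exact (a1.add a2).add a3
    have := hb.mul_isLittleO (H' y)
    simpa using this
  have key : ∀ {d : ℝ} (f : ℕ → ℝ) (Q : Polynomial (Y → ℝ)), 0 < d → f =O[atTop] (ex d) →
      (fun n => f n * (ex W n * ev Q n y)) =o[atTop] (ex W) := by
    intro d f Q hdd hf
    have h3 := hf.mul (ev_growth Q y (show (0:ℝ) < d / 2 by linarith))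
    have h4 : (fun n => ex d n * ex (-(d/2)) n) = ex (d/2) := by
      funext n; rw [ex_mul]; congr 1; ring
    rw [h4] at h3
    have h5 := h3.trans_tendsto (ex_tendsto (show (0:ℝ) < d / 2 by linarith))
    have h6 := ((isLittleO_one_iff ℝ).mpr h5).mul_isBigO (isBigO_refl (ex W) atTop)
    refine h6.congr (fun n => by ring) (fun n => by ring)
  have hP : (fun n : ℕ => ex W n * ev P n y) =O[atTop] (ex (W/2)) := by
    have h3 := (isBigO_refl (ex W) atTop).mul (ev_growth P y (show (0:ℝ) < W / 2 by linarith))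
    have h4 : (fun n => ex W n * ex (-(W/2)) n) = ex (W/2) := by
      funext n; rw [ex_mul]; congr 1; ring
    rw [h4] at h3
    exact h3
  have e3 := key _ P' hδ (hd y)
  have e4 := key _ P hδ' (hd' y)
  have e5 := key _ P' (show (0:ℝ) < W / 2 by linarith) hP
  refine ((((e1.add e2).add e3).add e4).add e5).congr_left fun n => ?_
  simp only [Pi.add_apply, Pi.smul_apply, Pi.mul_apply, smul_eq_mul, ev_add, ev_smul]
  ring

end

end Vale.Agent.P207.N3.H143
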