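import Mathlib

/-!
# Tensor rule (P207, line N3, package P17 (iii))
-/

open Finset

namespace Vale.Agent.P207.N3.H143

variable {Y : Type*} (U : Submodule ℝ (Y → ℝ))

/-- linear functionals modulo `U` separate -/
theorem exists_dual {T : Y → ℝ} (hT : T ∉ U) :
    ∃ f : (Y → ℝ) →ₗ[ℝ] ℝ, f T = 1 ∧ ∀ u ∈ U, f u = 0 := by
  have h1 : U.mkQ T ≠ 0 := by
    intro h
    exact hT ((Submodule.Quotient.mk_eq_zero U).mp h)
  have h2 : ∃ g : Module.Dual ℝ ((Y → ℝ) ⧸ U), g (U.mkQ T) ≠ 0 := by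
    by_contra hcon
    push Not at hcon
    exact h1 ((Module.forall_dual_apply_eq_zero_iff ℝ _).mp hcon)
  obtain ⟨g, hg⟩ := h2
  refine ⟨(g (U.mkQ T))⁻¹ • (g.comp U.mkQ), ?_, fun u hu => ?_⟩
  · simp only [LinearMap.smul_apply, LinearMap.comp_apply, smul_eq_mul]
    exact inv_mul_cancel₀ hg
  · have : U.mkQ u = 0 := (Submodule.Quotient.mk_eq_zero U).mpr hu
    simp only [LinearMap.smul_apply, LinearMap.comp_apply, this, map_zero, smul_zero]

/-- membership is tested by functionals vanishing on `U` -/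
theorem mem_of_dual {T : Y → ℝ} (h : ∀ f : (Y → ℝ) →ₗ[ℝ] ℝ, (∀ u ∈ U, f u = 0) → f T = 0) :
    T ∈ U := by
  by_contra hT
  obtain ⟨f, h1, h2⟩ := exists_dual U hT
  rw [h f h2] at h1
  exact zero_ne_one h1

/-- TENSOR RULE: if `T(y) T'(x) + ∑ F_i(y) s_i(x)` is in `U` as a function of `y` for every `x`,
then `T ∈ U` or `T'` is a linear combination of the `s_i`. -/
theorem tensor_rule {X ι : Type*} (I : Finset ι) (D : Set X) (T : Y → ℝ) (T' : X → ℝ)
    (F : ι → Y → ℝ) (s : ι → X → ℝ)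
    (h : ∀ x ∈ D, (fun y => T y * T' x + ∑ i ∈ I, F i y * s i x) ∈ U) :
    T ∈ U ∨ ∃ l : ι → ℝ, ∀ x ∈ D, T' x = ∑ i ∈ I, l i * s i x := by
  by_cases hT : T ∈ U
  · exact Or.inl hT
  right
  obtain ⟨f, h1, h2⟩ := exists_dual U hT
  refine ⟨fun i => - f (F i), fun x hx => ?_⟩
  have h3 := h2 _ (h x hx)
  have h4 : (fun y => T y * T' x + ∑ i ∈ I, F i y * s i x) =
      T' x • T + ∑ i ∈ I, s i x • F i := by
    funext y
    simp only [Pi.add_apply, Pi.smul_apply, smul_eq_mul, Finset.sum_apply]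
    rw [mul_comm]
    congr 1
    exact Finset.sum_congr rfl fun i _ => mul_comm _ _
  rw [h4, map_add, map_smul, map_sum, h1] at h3
  simp only [smul_eq_mul, mul_one, map_smul] at h3
  have h5 : T' x = - ∑ i ∈ I, s i x * f (F i) := by linarith
  rw [h5, ← Finset.sum_neg_distrib]
  exact Finset.sum_congr rfl fun i _ => by ring

/-- POLYNOMIAL RULE: if `∑ F_a(y) x^a + r(x, y)` ... all monomials separately -/
theorem poly_rule {d : ℕ} (I : Finset (Fin d →₀ ℕ)) (δ : ℝ) (hδ : 0 < δ)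
    (F : (Fin d →₀ ℕ) → Y → ℝ)
    (h : ∀ x : Fin d → ℝ, (∀ i, |x i| < δ) →
      (fun y => ∑ a ∈ I, F a y * a.prod fun i k => x i ^ k) ∈ U) :
    ∀ a ∈ I, F a ∈ U := by
  intro a ha
  refine mem_of_dual U fun f hf => ?_
  set Q : MvPolynomial (Fin d) ℝ := ∑ a ∈ I, MvPolynomial.monomial a (f (F a)) with hQ
  have h1 : Q = 0 := by
    refine MvPolynomial.funext_set (fun _ => Set.Ioo (-δ) δ)
      (fun _ => Set.Ioo_infinite (by linarith)) (fun x hx => ?_)
    have h2 := hf _ (h x fun i => by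
      have := hx i (Set.mem_univ i)
      exact abs_lt.mpr ⟨this.1, this.2⟩)
    have h4 : (fun y => ∑ a ∈ I, F a y * a.prod fun i k => x i ^ k) =
        ∑ a ∈ I, (a.prod fun i k => x i ^ k) • F a := by
      funext y
      simp only [Finset.sum_apply, Pi.smul_apply, smul_eq_mul]
      exact Finset.sum_congr rfl fun i _ => mul_comm _ _
    rw [h4, map_sum] at h2
    rw [hQ, map_sum, map_zero, ← h2]
    refine Finset.sum_congr rfl fun b _ => ?_
    rw [MvPolynomial.eval_monomial, map_smul, smul_eq_mul, mul_comm]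
  have h3 : Q.coeff a = f (F a) := by
    rw [hQ, MvPolynomial.coeff_sum, Finset.sum_eq_single_of_mem a ha]
    · simp
    · intro b _ hb
      rw [MvPolynomial.coeff_monomial, if_neg hb]
  rw [← h3, h1, MvPolynomial.coeff_zero]

end Vale.Agent.P207.N3.H143
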